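import Vale.Agent.P228.Base

namespace Vale.Agent.P228

open MeasureTheory Set Metric Filter Topology Vale.Agent.Lib.Degree

variable {ι : Type} [Fintype ι] [DecidableEq ι]

omit [DecidableEq ι] in
theorem avg_gen {p : ℕ} [Fact p.Prime] {F : ℤ_[p] → (ι → ℝ) → (ι → ℝ)}
    (hF : Continuous fun q : ℤ_[p] × (ι → ℝ) => F q.1 q.2) :
    ∃ φ : (ι → ℝ) → (ι → ℝ), Continuous φ ∧
      (∀ R C β : ℝ, (∀ t, Reg (F t) R C β) → Reg φ R C β) ∧
      (∀ x x' s, (∀ t, F t x' = F (t + s) x) → φ x' = φ x) ∧
      ∀ x y (r : ℝ), (∀ t, ‖F t x - y‖ ≤ r) → ‖φ x - y‖ ≤ r := by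
  borelize ℤ_[p]
  let μ : Measure ℤ_[p] := Measure.addHaarMeasure ⊤
  have hμ : IsProbabilityMeasure μ := ⟨by
    simpa using (Measure.addHaarMeasure_self (G := ℤ_[p]) (K₀ := ⊤))⟩
  have hc : ∀ x, Continuous fun t => F t x := fun x =>
    hF.comp (continuous_id.prodMk continuous_const)
  have hi : ∀ x, Integrable (fun t => F t x) μ := fun x =>
    (hc x).integrable_of_hasCompactSupport (HasCompactSupport.of_compactSpace _)
  refine ⟨fun x => ∫ t, F t x ∂μ, ?_, ?_, ?_, ?_⟩
  · have := continuous_parametric_integral_of_continuous (μ := μ) (f := fun x t => F t x)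
      (hF.comp (continuous_snd.prodMk continuous_fst)) isCompact_univ
    simpa using this
  · intro R C β h v hv
    have hG : Continuous fun q : (ι → ℝ) × ℤ_[p] =>
        ‖F q.2 (q.1 + v) - F q.2 q.1‖ ^ Fintype.card ι := by
      refine Continuous.pow (Continuous.norm (Continuous.sub ?_ ?_)) _
      · exact hF.comp (continuous_snd.prodMk (continuous_fst.add continuous_const))
      · exact hF.comp (continuous_snd.prodMk continuous_fst)
    have hint : Integrable (fun q : (ι → ℝ) × ℤ_[p] =>
        ‖F q.2 (q.1 + v) - F q.2 q.1‖ ^ Fintype.card ι)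
        ((volume.restrict (closedBall (0 : ι → ℝ) R)).prod μ) := by
      have h1 : IntegrableOn (fun q : (ι → ℝ) × ℤ_[p] =>
          ‖F q.2 (q.1 + v) - F q.2 q.1‖ ^ Fintype.card ι)
          (closedBall (0 : ι → ℝ) R ×ˢ univ) (volume.prod μ) :=
        hG.continuousOn.integrableOn_compact ((isCompact_closedBall _ _).prod isCompact_univ)
      rw [IntegrableOn, ← Measure.prod_restrict, Measure.restrict_univ] at h1
      exact h1
    have hpt : ∀ x, ‖(∫ t, F t (x + v) ∂μ) - ∫ t, F t x ∂μ‖ ^ Fintype.card ι ≤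
        ∫ t, ‖F t (x + v) - F t x‖ ^ Fintype.card ι ∂μ := by
      intro x
      have hn : Continuous fun t => ‖F t (x + v) - F t x‖ := ((hc _).sub (hc _)).norm
      rw [← integral_sub (hi _) (hi _)]
      refine (pow_le_pow_left₀ (norm_nonneg _) (norm_integral_le_integral_norm _) _).trans ?_
      exact (convexOn_pow (Fintype.card ι)).map_integral_le (continuous_pow _).continuousOn
        isClosed_Ici (Eventually.of_forall fun t => norm_nonneg _)
        (hn.integrable_of_hasCompactSupport (HasCompactSupport.of_compactSpace _))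
        ((hn.pow _).integrable_of_hasCompactSupport (HasCompactSupport.of_compactSpace _))
    calc ∫ x in closedBall (0 : ι → ℝ) R,
          ‖(∫ t, F t (x + v) ∂μ) - ∫ t, F t x ∂μ‖ ^ Fintype.card ι
        ≤ ∫ x in closedBall (0 : ι → ℝ) R, ∫ t, ‖F t (x + v) - F t x‖ ^ Fintype.card ι ∂μ :=
          integral_mono_of_nonneg (Eventually.of_forall fun x => by positivity)
            hint.integral_prod_left (Eventually.of_forall hpt)
      _ = ∫ t, (∫ x in closedBall (0 : ι → ℝ) R,
            ‖F t (x + v) - F t x‖ ^ Fintype.card ι) ∂μ := integral_integral_swap hint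
      _ ≤ ∫ _t, C * ‖v‖ ^ β ∂μ :=
          integral_mono hint.integral_prod_right (integrable_const _) fun t => h t v hv
      _ = C * ‖v‖ ^ β := by simp
  · intro x x' s h
    simp only [h]
    exact integral_add_right_eq_self (fun t => F t x) s
  · intro x y r h
    have : (∫ t, F t x ∂μ) - y = ∫ t, (F t x - y) ∂μ := by
      rw [integral_sub (hi x) (integrable_const _)]; simp
    rw [this]
    have := norm_integral_le_of_norm_le_const (μ := μ) (f := fun t => F t x - y)
      (Eventually.of_forall h)
    simpa using this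

end Vale.Agent.P228
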