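import Vale.Agent.P228.Defs
import Vale.Agent.Lib.Degree.Count

/-! Proof-level definitions for P228. -/

namespace Vale.Agent.P228

open MeasureTheory Set Metric Vale.Agent.Lib.Degree

variable {ι : Type} [Fintype ι] [DecidableEq ι]

/-- integral modulus of continuity on the ball of radius `R` -/
def Reg (φ : (ι → ℝ) → (ι → ℝ)) (R C β : ℝ) : Prop :=
  ∀ v : ι → ℝ, ‖v‖ ≤ 1 →
    ∫ x in closedBall (0 : ι → ℝ) R, ‖φ (x + v) - φ x‖ ^ Fintype.card ι ≤ C * ‖v‖ ^ β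

/-- uniform regularity of an action -/
def RegA {p : ℕ} [Fact p.Prime] (A : ℤ_[p] → (ι → ℝ) → (ι → ℝ)) : Prop :=
  ∀ R : ℝ, ∃ C β : ℝ, (Fintype.card ι : ℝ) - 1 < β ∧ ∀ t, Reg (A t) R C β

/-- a dense set of coordinate hyperplanes has null image -/
def Thin (φ : (ι → ℝ) → (ι → ℝ)) : Prop :=
  ∀ (R : ℝ) (i : ι) (a b : ℝ), a < b →
    ∃ t ∈ Ioo a b, volume (φ '' {x | ‖x‖ ≤ R ∧ x i = t}) = 0

/-- local degree one everywhere -/
def Pos (T : (ι → ℝ) → (ι → ℝ)) : Prop :=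
  ∀ (y : ι → ℝ) (Ω : Set (ι → ℝ)), IsOpen Ω → Bornology.IsBounded Ω → (∃ x ∈ Ω, T x = y) →
    deg (fun x => T x - y) Ω = 1

/-- dyadic grid point -/
noncomputable def pt (u : ι → ℝ) (k : ℕ) (z : ι → ℤ) : ι → ℝ := fun j => u j + (z j : ℝ) / 2 ^ k

/-- grid indices in the hyperplane -/
noncomputable def Zs (i : ι) (N k : ℕ) : Finset (ι → ℤ) :=
  Fintype.piFinset fun j =>
    if j = i then {0} else Finset.Icc (-((N * 2 ^ k : ℕ) : ℤ)) ((N * 2 ^ k : ℕ) : ℤ)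

/-- refinement steps -/
def Es (ι : Type) [Fintype ι] [DecidableEq ι] : Finset (ι → ℤ) :=
  Fintype.piFinset fun _ => ({0, 1} : Finset ℤ)

/-- sum of the increments at level `k` -/
noncomputable def SS (φ : (ι → ℝ) → (ι → ℝ)) (u : ι → ℝ) (i : ι) (N k : ℕ) : ℝ :=
  ∑ z ∈ Zs i N k, ∑ e ∈ Es ι,
    ‖φ (pt u (k + 1) (fun j => 2 * z j + e j)) - φ (pt u k z)‖ ^ Fintype.card ι

/-- the homeomorphism given by one group element -/
noncomputable def IsAct.homeo {p : ℕ} [Fact p.Prime] {E : Type} [TopologicalSpace E] {A : ℤ_[p] → E → E}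
    (hA : IsAct A) (t : ℤ_[p]) : E ≃ₜ E where
  toFun := A t
  invFun := A (-t)
  left_inv := fun x => by rw [← hA.2.2, neg_add_cancel, hA.2.1]
  right_inv := fun x => by rw [← hA.2.2, add_neg_cancel, hA.2.1]
  continuous_toFun := hA.1.comp (continuous_const.prodMk continuous_id)
  continuous_invFun := hA.1.comp (continuous_const.prodMk continuous_id)

end Vale.Agent.P228
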