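import Mathlib

/-! Statement-level definitions for P228. -/

namespace Vale.Agent.P228

/-- `A` is a jointly continuous action of the `p`-adic integers on `E` -/
def IsAct {p : ℕ} [Fact p.Prime] {E : Type} [TopologicalSpace E] (A : ℤ_[p] → E → E) : Prop :=
  Continuous (fun q : ℤ_[p] × E => A q.1 q.2) ∧ (∀ x, A 0 x = x) ∧
    ∀ s t x, A (s + t) x = A s (A t x)

end Vale.Agent.P228
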