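import Vale.Agent.P228.Base

namespace Vale.Agent.P228

open MeasureTheory Set Metric Filter Topology Vale.Agent.Lib.Degree

variable {ι : Type} [Fintype ι] [DecidableEq ι]

theorem exists_reg {f : (ι → ℝ) → (ι → ℝ)} (hf : Continuous f) {ε : ℝ} (hε : 0 < ε) :
    ∃ g : (ι → ℝ) → (ι → ℝ), ContDiff ℝ 1 g ∧ (∀ x, ‖g x - f x‖ < ε) ∧
      ∀ x, g x = 0 → (fderiv ℝ g x).det ≠ 0 := by
  obtain ⟨g, hg, hga, -⟩ := hf.exists_contDiff_approx 1
    (ε := fun _ => ε / 3) continuous_const fun _ => by positivity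
  have hg : ContDiff ℝ 1 g := by exact_mod_cast hg
  obtain ⟨y, hy, hyC⟩ := exists_not_mem_of_null (η := ε / 3)
    (sard (h := g) (U := univ) fun x _ => (hg.differentiable (by norm_num)) x) (by positivity)
  refine ⟨fun a => g a - y, hg.sub contDiff_const, fun a => ?_, fun x h0 hdet =>
    hyC ⟨x, ⟨mem_univ _, by rwa [fderiv_sub_const] at hdet⟩, sub_eq_zero.1 h0⟩⟩
  have := hga a
  rw [dist_eq_norm] at this
  calc ‖(g a - y) - f a‖ = ‖(g a - f a) - y‖ := by congr 1; abel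
    _ ≤ ‖g a - f a‖ + ‖y‖ := norm_sub_le _ _
    _ < ε := by linarith

theorem exists_balls {g : (ι → ℝ) → (ι → ℝ)} (hg : ContDiff ℝ 1 g) {Ω : Set (ι → ℝ)}
    (ho : IsOpen Ω) (hb : Bornology.IsBounded Ω) (H : ∀ x ∈ frontier Ω, g x ≠ 0)
    (hreg : ∀ x ∈ Ω, g x = 0 → (fderiv ℝ g x).det ≠ 0) :
    ∃ (Z : Finset (ι → ℝ)) (r : ℝ), 0 < r ∧ (∀ x, x ∈ Z ↔ x ∈ Ω ∧ g x = 0) ∧
      (∀ z ∈ Z, ball z r ⊆ Ω) ∧
      (Z : Set (ι → ℝ)).Pairwise (Function.onFun Disjoint fun z => ball z r) ∧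
      ∀ z ∈ Z, ∀ x, dist x z = r →
        ‖g x - fderiv ℝ g z (x - z)‖ < ‖fderiv ℝ g z (x - z)‖ := by
  have hfin := (deg_count hg ho hb H hreg).1
  set Z := {x | x ∈ Ω ∧ g x = 0} with hZ
  have hloc : ∀ z ∈ Z, ∀ᶠ x in 𝓝 z, x ≠ z →
      ‖g x - fderiv ℝ g z (x - z)‖ < ‖fderiv ℝ g z (x - z)‖ := fun z hz =>
    local_linear ((hg.differentiable (by norm_num)) z).hasFDerivAt (hreg z hz.1 hz.2) hz.2
  have hiso : ∀ z ∈ Z, ∀ᶠ x in 𝓝 z, x ∈ Z → x = z := by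
    intro z hz
    filter_upwards [hloc z hz] with x hx hxZ
    by_contra hne
    have := hx hne
    rw [hxZ.2, zero_sub, norm_neg] at this
    exact lt_irrefl _ this
  have hP : ∀ z ∈ Z, ∀ᶠ r in 𝓝[>] (0 : ℝ), ∀ x, dist x z ≤ 2 * r → (x ∈ Ω ∧ (x ∈ Z → x = z) ∧
      (x ≠ z → ‖g x - fderiv ℝ g z (x - z)‖ < ‖fderiv ℝ g z (x - z)‖)) := by
    intro z hz
    have := ((ho.eventually_mem hz.1).and ((hiso z hz).and (hloc z hz)))
    obtain ⟨ε, hε, h⟩ := Metric.eventually_nhds_iff.1 this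
    have h2 : ∀ᶠ r in 𝓝[>] (0 : ℝ), r < ε / 2 :=
      mem_nhdsWithin_of_mem_nhds (gt_mem_nhds (half_pos hε))
    filter_upwards [h2] with r hr x hx
    exact h (by linarith)
  obtain ⟨r, hr, hr0⟩ := (((eventually_all_finite hfin).2 hP).and self_mem_nhdsWithin).exists
  have hr0 : 0 < r := hr0
  refine ⟨hfin.toFinset, r, hr0, fun x => hfin.mem_toFinset, fun z hz x hx =>
    (hr z (hfin.mem_toFinset.1 hz) x (by rw [Metric.mem_ball] at hx; linarith)).1, ?_, ?_⟩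
  · intro z hz z' hz' hne
    have hz := hfin.mem_toFinset.1 hz
    have hz' := hfin.mem_toFinset.1 hz'
    refine disjoint_left.2 fun x hx hx' => hne ?_
    rw [Metric.mem_ball] at hx hx'
    refine (hr z' hz' z ?_).2.1 hz
    have := dist_triangle_left z z' x
    linarith
  · intro z hz x hx
    refine (hr z (hfin.mem_toFinset.1 hz) x (by linarith)).2.2 ?_
    rintro rfl
    simp at hx
    linarith

theorem exists_gap {f : (ι → ℝ) → (ι → ℝ)} (hf : Continuous f) {Ω : Set (ι → ℝ)}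
    (hb : Bornology.IsBounded Ω) (H : ∀ x ∈ frontier Ω, f x ≠ 0) :
    ∃ ε > (0 : ℝ), ∀ x ∈ frontier Ω, ε ≤ ‖f x‖ := by
  rcases (frontier Ω).eq_empty_or_nonempty with h | h
  · exact ⟨1, one_pos, fun x hx => by rw [h] at hx; exact hx.elim⟩
  · obtain ⟨x0, hx0, hmin⟩ := (isCompact_frontier hb).exists_isMinOn h hf.norm.continuousOn
    exact ⟨‖f x0‖, norm_pos_iff.2 (H x0 hx0), fun x hx => hmin hx⟩

theorem deg_int {f : (ι → ℝ) → (ι → ℝ)} (hf : Continuous f) {Ω : Set (ι → ℝ)}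
    (ho : IsOpen Ω) (hb : Bornology.IsBounded Ω) (H : ∀ x ∈ frontier Ω, f x ≠ 0) :
    ∃ k : ℤ, deg f Ω = k := by
  obtain ⟨ε, hε, hg0⟩ := exists_gap hf hb H
  obtain ⟨g, hg, h1, h2⟩ := exists_reg hf hε
  have h3 : deg f Ω = deg g Ω :=
    deg_rouche hf hg.continuous ho hb fun a ha => (h1 a).trans_le (hg0 a ha)
  obtain ⟨-, k, e, -⟩ := deg_count hg ho hb (fun a ha h0 => by
    have := h1 a
    rw [h0, zero_sub, norm_neg] at this
    exact absurd (hg0 a ha) (not_le.2 this)) fun x _ h0 => h2 x h0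
  exact ⟨k, h3.trans e⟩

end Vale.Agent.P228
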