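import Vale.Agent.P228.DegA

namespace Vale.Agent.P228

open MeasureTheory Set Metric Filter Topology Vale.Agent.Lib.Degree

variable {ι : Type} [Fintype ι] [DecidableEq ι]

theorem DegB_inj {L : (ι → ℝ) →L[ℝ] (ι → ℝ)} (hL : L.det ≠ 0) {w : ι → ℝ} (hw : L w = 0) :
    w = 0 := by
  obtain ⟨c, hc, hcL⟩ := exists_lower_bound hL
  have h := hcL w
  rw [hw, norm_zero] at h
  have : ‖w‖ ≤ 0 := by
    by_contra hn
    have := mul_pos hc (not_le.1 hn)
    linarith
  exact norm_le_zero_iff.1 this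

theorem DegB_rouche {f f' : (ι → ℝ) → (ι → ℝ)} (hf : Continuous f) (hf' : Continuous f')
    {Ω : Set (ι → ℝ)} (ho : IsOpen Ω) (hb : Bornology.IsBounded Ω)
    (H : ∀ x ∈ frontier Ω, ‖f' x - f x‖ < ‖f x‖)
    {L : (ι → ℝ) →L[ℝ] (ι → ℝ)} (hL : L.det ≠ 0) :
    deg (fun x => L (f x)) Ω = deg (fun x => L (f' x)) Ω := by
  refine deg_homotopy (L.continuous.comp hf) (L.continuous.comp hf') ho hb ?_
  intro x hx t ht h0
  have h1 : L (f x + t • (f' x - f x)) = 0 := by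
    rw [map_add, map_smul, map_sub]
    exact h0
  have h2 := DegB_inj hL h1
  have h3 : f x = -(t • (f' x - f x)) := eq_neg_of_add_eq_zero_left h2
  have h4 : ‖f x‖ = t * ‖f' x - f x‖ := by
    conv_lhs => rw [h3]
    rw [norm_neg, norm_smul, Real.norm_eq_abs, abs_of_nonneg ht.1]
  have h5 := H x hx
  nlinarith [norm_nonneg (f' x - f x), ht.1, ht.2]

theorem DegB_det (L D : (ι → ℝ) →L[ℝ] (ι → ℝ)) : (L.comp D).det = L.det * D.det := by
  simp only [ContinuousLinearMap.det]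
  rw [← LinearMap.det_comp]
  rfl

theorem DegB_sign {a b : ℝ} (ha : a ≠ 0) (hb : b ≠ 0) :
    (if 0 < a * b then (1 : ℝ) else -1) = (if 0 < a then 1 else -1) * (if 0 < b then 1 else -1) := by
  rcases lt_or_gt_of_ne ha with h1 | h1 <;> rcases lt_or_gt_of_ne hb with h2 | h2
  · rw [if_pos (mul_pos_of_neg_of_neg h1 h2), if_neg h1.not_gt, if_neg h2.not_gt]; norm_num
  · rw [if_neg (mul_neg_of_neg_of_pos h1 h2).not_gt, if_neg h1.not_gt, if_pos h2]; norm_num
  · rw [if_neg (mul_neg_of_pos_of_neg h1 h2).not_gt, if_pos h1, if_neg h2.not_gt]; norm_num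
  · rw [if_pos (mul_pos h1 h2), if_pos h1, if_pos h2]; norm_num

theorem deg_lin {f : (ι → ℝ) → (ι → ℝ)} (hf : Continuous f) {Ω : Set (ι → ℝ)}
    (ho : IsOpen Ω) (hb : Bornology.IsBounded Ω) (H : ∀ x ∈ frontier Ω, f x ≠ 0)
    {L : (ι → ℝ) →L[ℝ] (ι → ℝ)} (hL : L.det ≠ 0) :
    deg (fun x => L (f x)) Ω = (if 0 < L.det then 1 else -1) * deg f Ω := by
  obtain ⟨ε, hε, hgap⟩ := exists_gap hf hb H
  obtain ⟨g, hg, hgf, hreg⟩ := exists_reg hf hε
  have hclose : ∀ x ∈ frontier Ω, ‖g x - f x‖ < ‖f x‖ := fun x hx =>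
    (hgf x).trans_le (hgap x hx)
  have Hg : ∀ x ∈ frontier Ω, g x ≠ 0 := by
    intro x hx h0
    have := hclose x hx
    rw [h0, zero_sub, norm_neg] at this
    exact lt_irrefl _ this
  obtain ⟨Z, r, hr, hZ, hsub, hdis, hloc⟩ :=
    exists_balls hg ho hb Hg (fun x _ h0 => hreg x h0)
  have hcov : ∀ x ∈ closure Ω, g x = 0 → ∃ z ∈ Z, x ∈ ball z r := by
    intro x hx h0
    have hxΩ : x ∈ Ω := by
      by_contra hn
      exact Hg x ⟨hx, by rwa [ho.interior_eq]⟩ h0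
    exact ⟨x, (hZ x).2 ⟨hxΩ, h0⟩, mem_ball_self hr⟩
  rw [DegB_rouche hf hg.continuous ho hb hclose hL, deg_rouche hf hg.continuous ho hb hclose,
    deg_sum hg.continuous ho hb Z (fun z => ball z r) (fun _ _ => isOpen_ball) hsub hdis hcov,
    deg_sum (f := fun x => L (g x)) (L.continuous.comp hg.continuous) ho hb Z (fun z => ball z r)
      (fun _ _ => isOpen_ball) hsub hdis (fun x hx h0 => hcov x hx (DegB_inj hL h0)),
    Finset.mul_sum]
  refine Finset.sum_congr rfl fun z hz => ?_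
  have hD : (fderiv ℝ g z).det ≠ 0 := hreg z ((hZ z).1 hz).2
  have hfr : ∀ x ∈ frontier (ball z r),
      ‖g x - fderiv ℝ g z (x - z)‖ < ‖fderiv ℝ g z (x - z)‖ := by
    intro x hx
    rw [frontier_ball z hr.ne', mem_sphere] at hx
    exact hloc z hz x hx
  have hc : Continuous fun x => fderiv ℝ g z (x - z) := by fun_prop
  have hLD : (L.comp (fderiv ℝ g z)).det ≠ 0 := by
    rw [DegB_det]; exact mul_ne_zero hL hD
  have h1 := deg_affine hLD z hr
  rw [← DegB_rouche hc hg.continuous isOpen_ball isBounded_ball hfr hL,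
    ← deg_rouche hc hg.continuous isOpen_ball isBounded_ball hfr, deg_affine hD z hr,
    ← DegB_sign hL hD, ← DegB_det]
  exact h1

end Vale.Agent.P228
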