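import Vale.Agent.P228.DegB

namespace Vale.Agent.P228

open MeasureTheory Set Metric Filter Topology Vale.Agent.Lib.Degree

variable {ι : Type} [Fintype ι] [DecidableEq ι]

theorem degC_bdd (T : (ι → ℝ) ≃ₜ (ι → ℝ)) {Ω : Set (ι → ℝ)} (hb : Bornology.IsBounded Ω) :
    Bornology.IsBounded (T ⁻¹' Ω) :=
  (T.isCompact_preimage.2 hb.isCompact_closure).isBounded.subset (preimage_mono subset_closure)

theorem degC_rouche (T : (ι → ℝ) ≃ₜ (ι → ℝ)) {f g : (ι → ℝ) → (ι → ℝ)} (hf : Continuous f)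
    (hg : Continuous g) {Ω : Set (ι → ℝ)} (ho : IsOpen Ω) (hb : Bornology.IsBounded Ω)
    (H : ∀ x ∈ frontier Ω, ‖g x - f x‖ < ‖f x‖) :
    deg (fun x => f (T x)) (T ⁻¹' Ω) = deg (fun x => g (T x)) (T ⁻¹' Ω) :=
  deg_rouche (hf.comp T.continuous) (hg.comp T.continuous) (ho.preimage T.continuous)
    (degC_bdd T hb) fun x hx => H (T x) (by rwa [← T.preimage_frontier] at hx)

theorem deg_comp (T : (ι → ℝ) ≃ₜ (ι → ℝ)) (hT : Pos T) {f : (ι → ℝ) → (ι → ℝ)}
    (hf : Continuous f) {Ω : Set (ι → ℝ)} (ho : IsOpen Ω) (hb : Bornology.IsBounded Ω)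
    (H : ∀ x ∈ frontier Ω, f x ≠ 0) : deg (fun x => f (T x)) (T ⁻¹' Ω) = deg f Ω := by
  obtain ⟨ε, hε, hgap⟩ := exists_gap hf hb H
  obtain ⟨g, hg, hgf, hreg⟩ := exists_reg hf hε
  have hR : ∀ x ∈ frontier Ω, ‖g x - f x‖ < ‖f x‖ := fun x hx => (hgf x).trans_le (hgap x hx)
  have Hg : ∀ x ∈ frontier Ω, g x ≠ 0 := by
    intro x hx h0
    have := hR x hx
    rw [h0, zero_sub, norm_neg] at this
    exact lt_irrefl _ this
  obtain ⟨Z, r, hr, hZ, hsub, hdis, hloc⟩ := exists_balls hg ho hb Hg fun x _ h => hreg x h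
  have hcl : ∀ x ∈ closure Ω, g x = 0 → ∃ z ∈ Z, x ∈ ball z r := by
    intro x hx h0
    refine ⟨x, (hZ x).2 ⟨?_, h0⟩, mem_ball_self hr⟩
    by_contra hn
    exact Hg x ⟨hx, by rwa [ho.interior_eq]⟩ h0
  rw [degC_rouche T hf hg.continuous ho hb hR, deg_rouche hf hg.continuous ho hb hR,
    deg_sum hg.continuous ho hb Z (fun z => ball z r) (fun _ _ => isOpen_ball) hsub hdis hcl,
    deg_sum (f := fun x => g (T x)) (hg.continuous.comp T.continuous) (ho.preimage T.continuous)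
      (degC_bdd T hb) Z (fun z => T ⁻¹' ball z r) (fun _ _ => isOpen_ball.preimage T.continuous)
      (fun z hz => preimage_mono (hsub z hz))
      (fun z hz z' hz' hne => Disjoint.preimage T (hdis hz hz' hne))
      (fun x hx h0 => hcl (T x) (by rwa [← T.preimage_closure] at hx) h0)]
  refine Finset.sum_congr rfl fun z hz => ?_
  have hdet := hreg z ((hZ z).1 hz).2
  have hfr : ∀ x ∈ frontier (ball z r),
      ‖g x - fderiv ℝ g z (x - z)‖ < ‖fderiv ℝ g z (x - z)‖ := by
    intro x hx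
    rw [frontier_ball z hr.ne', mem_sphere] at hx
    exact hloc z hz x hx
  have hc : Continuous fun x => fderiv ℝ g z (x - z) := by fun_prop
  rw [← degC_rouche T hc hg.continuous isOpen_ball isBounded_ball hfr,
    ← deg_rouche hc hg.continuous isOpen_ball isBounded_ball hfr, deg_affine hdet z hr,
    deg_lin (f := fun x => T x - z) (T.continuous.sub continuous_const)
      (isOpen_ball.preimage T.continuous) (degC_bdd T isBounded_ball) ?_ hdet,
    hT z _ (isOpen_ball.preimage T.continuous) (degC_bdd T isBounded_ball)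
      ⟨T.symm z, by simpa using hr, T.apply_symm_apply z⟩, mul_one]
  intro x hx h0
  rw [← T.preimage_frontier, mem_preimage, frontier_ball z hr.ne', mem_sphere,
    sub_eq_zero.1 h0, dist_self] at hx
  exact hr.ne hx

end Vale.Agent.P228
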