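import Vale.Agent.P228.Base

namespace Vale.Agent.P228

open MeasureTheory Set Metric Filter Topology Vale.Agent.Lib.Degree

variable {ι : Type} [Fintype ι] [DecidableEq ι]

theorem pos_of (T : (ι → ℝ) ≃ₜ (ι → ℝ)) {y0 : ι → ℝ} {Ω0 : Set (ι → ℝ)} (ho : IsOpen Ω0)
    (hb : Bornology.IsBounded Ω0) (hx : ∃ x ∈ Ω0, T x = y0)
    (h : deg (fun x => T x - y0) Ω0 = 1) : Pos T := by
  intro y Ω hΩo hΩb hy
  have hK : IsCompact ((fun t : ℝ => T.symm (y0 + t • (y - y0))) '' Icc (0 : ℝ) 1) :=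
    isCompact_Icc.image (by fun_prop)
  obtain ⟨R, hR⟩ := ((hb.union hΩb).union hK.isBounded).subset_ball (0 : ι → ℝ)
  have h0 : Ω0 ⊆ ball 0 R := fun x hx => hR (Or.inl (Or.inl hx))
  have h1 : Ω ⊆ ball 0 R := fun x hx => hR (Or.inl (Or.inr hx))
  have hc : ∀ w : ι → ℝ, Continuous fun x => T x - w := fun w => by fun_prop
  have exc : ∀ (w : ι → ℝ) (U : Set (ι → ℝ)), IsOpen U → U ⊆ ball 0 R → (∃ x ∈ U, T x = w) →
      deg (fun x => T x - w) (ball 0 R) = deg (fun x => T x - w) U := by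
    rintro w U hU hUR ⟨x0, hx0, hTx⟩
    refine deg_excision (hc w) isOpen_ball isBounded_ball hU hUR fun x _ hx => ?_
    have : T x = T x0 := by rw [hTx]; exact sub_eq_zero.1 hx
    rw [T.injective this]
    exact hx0
  rw [← exc y Ω hΩo h1 hy, ← h, ← exc y0 Ω0 ho h0 hx]
  symm
  refine deg_homotopy (hc y0) (hc y) isOpen_ball isBounded_ball fun x hx t ht h0 => ?_
  have e : T x = y0 + t • (y - y0) := by
    have : T x - y0 + t • (T x - y - (T x - y0)) = T x - (y0 + t • (y - y0)) := by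
      simp only [smul_sub]; abel
    rw [this] at h0
    exact sub_eq_zero.1 h0
  have hmem : x ∈ ball (0 : ι → ℝ) R := by
    refine hR (Or.inr ⟨t, ht, ?_⟩)
    simp only [← e, Homeomorph.symm_apply_apply]
  have := frontier_ball_subset_sphere hx
  rw [mem_sphere] at this
  rw [mem_ball] at hmem
  linarith

theorem deg_near {f : (ι → ℝ) → (ι → ℝ)} (hf : Continuous f) (z : ι → ℝ) {r : ℝ} (hr : 0 < r)
    (h : ∀ x, dist x z = r → ‖f x - (x - z)‖ < r) : deg f (ball z r) = 1 := by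
  have hd : (ContinuousLinearMap.id ℝ (ι → ℝ)).det = 1 := by
    simp [ContinuousLinearMap.det]
  have h1 := deg_affine (L := ContinuousLinearMap.id ℝ (ι → ℝ)) (by rw [hd]; exact one_ne_zero) z hr
  rw [hd, if_pos one_pos] at h1
  rw [← h1]
  symm
  refine deg_rouche (by fun_prop) hf isOpen_ball isBounded_ball fun x hx => ?_
  have h2 := frontier_ball_subset_sphere hx
  rw [mem_sphere] at h2
  have h3 := h x h2
  simp only [ContinuousLinearMap.id_apply]
  rw [← dist_eq_norm x z, h2]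
  exact h3

theorem pos_of_fixed (T : (ι → ℝ) ≃ₜ (ι → ℝ)) (c : ι → ℝ) {r : ℝ} (hr : 0 < r)
    (h : ∀ x ∈ ball c r, T x = x) : Pos T := by
  have hr2 : 0 < r / 2 := by linarith
  refine pos_of T (y0 := c) (Ω0 := ball c (r / 2)) isOpen_ball isBounded_ball
    ⟨c, mem_ball_self hr2, h c (mem_ball_self hr)⟩ ?_
  refine deg_near (by fun_prop) c hr2 fun x hx => ?_
  have : T x = x := h x (by rw [mem_ball, hx]; linarith)
  rw [this, sub_self, norm_zero]
  exact hr2

theorem pos_of_close (T : (ι → ℝ) ≃ₜ (ι → ℝ))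
    (h : ∀ x ∈ closedBall (0 : ι → ℝ) 1, ‖T x - x‖ ≤ 1 / 8) : Pos T := by
  have hd : deg (fun x => T x - 0) (ball (0 : ι → ℝ) 1) = 1 := by
    refine deg_near (by fun_prop) 0 one_pos fun x hx => ?_
    have := h x (by rw [mem_closedBall, hx])
    simp only [sub_zero]
    linarith
  obtain ⟨x, hx, hx0⟩ := exists_zero_of_deg_ne_zero (f := fun x => T x - 0) (by fun_prop)
    isOpen_ball isBounded_ball (by rw [hd]; exact one_ne_zero)
  have hx0' : T x = 0 := by simpa using hx0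
  have h1 := h x (closure_ball_subset_closedBall hx)
  rw [hx0', zero_sub, norm_neg] at h1
  refine pos_of T (y0 := 0) (Ω0 := ball 0 1) isOpen_ball isBounded_ball ⟨x, ?_, hx0'⟩ hd
  rw [mem_ball_zero_iff]
  linarith

end Vale.Agent.P228
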