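import Vale.Agent.P228.Base

namespace Vale.Agent.P228

open MeasureTheory Set Metric Filter Topology Vale.Agent.Lib.Degree

variable {ι : Type} [Fintype ι] [DecidableEq ι]

theorem NullB_max {b : ℕ → ℝ} (h0 : ∀ m, 0 ≤ b m) (hb : Tendsto b atTop (𝓝 0)) :
    ∃ m0, ∀ m, b m ≤ b m0 := by
  by_cases h : ∀ m, b m ≤ 0
  · exact ⟨0, fun m => (h m).trans (h0 0)⟩
  · obtain ⟨m1, hm1⟩ := not_forall.1 h
    have hp : 0 < b m1 := not_le.1 hm1
    obtain ⟨M, hM⟩ := eventually_atTop.1 (hb.eventually (gt_mem_nhds hp))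
    obtain ⟨m0, -, hm0⟩ := Finset.exists_max_image (Finset.range (M + m1 + 1)) b ⟨0, by simp⟩
    refine ⟨m0, fun m => ?_⟩
    by_cases hm : m < M + m1 + 1
    · exact hm0 m (Finset.mem_range.2 hm)
    · exact (hM m (by omega)).le.trans (hm0 m1 (Finset.mem_range.2 (by omega)))

/-- dyadic approximation indices -/
noncomputable def NullB_z (u x : ι → ℝ) (k : ℕ) : ι → ℤ := fun j => ⌊2 ^ k * (x j - u j)⌋

theorem NullB_mem_Zs (i : ι) (u x : ι → ℝ) (N : ℕ) {R : ℝ} (hN : ‖u‖ + R ≤ N) (hx : ‖x‖ ≤ R)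
    (hi : x i = u i) (k : ℕ) : NullB_z u x k ∈ Zs i N k := by
  unfold Zs
  rw [Fintype.mem_piFinset]
  intro j
  by_cases h : j = i
  · subst h
    simp [NullB_z, hi]
  · rw [if_neg h, Finset.mem_Icc]
    have a1 := abs_le.1 ((Real.norm_eq_abs _).ge.trans (norm_le_pi_norm x j))
    have a2 := abs_le.1 ((Real.norm_eq_abs _).ge.trans (norm_le_pi_norm u j))
    have hp : (0 : ℝ) < 2 ^ k := by positivity
    constructor
    · apply Int.le_floor.2
      push_cast
      nlinarith [a1.1, a2.2]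
    · have : ((NullB_z u x k j : ℤ) : ℝ) ≤ (((N * 2 ^ k : ℕ) : ℤ) : ℝ) := by
        refine (Int.floor_le _).trans ?_
        push_cast
        nlinarith [a1.2, a2.1]
      exact_mod_cast this

theorem NullB_mem_Es (u x : ι → ℝ) (k : ℕ) :
    (fun j => NullB_z u x (k + 1) j - 2 * NullB_z u x k j) ∈ Es ι := by
  unfold Es
  rw [Fintype.mem_piFinset]
  intro j
  simp only [NullB_z, Finset.mem_insert, Finset.mem_singleton]
  set y := 2 ^ k * (x j - u j) with hy
  have e : 2 ^ (k + 1) * (x j - u j) = 2 * y := by rw [hy]; ring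
  rw [e]
  have a1 := Int.floor_le y
  have a2 := Int.lt_floor_add_one y
  have b1 : 2 * ⌊y⌋ ≤ ⌊2 * y⌋ := Int.le_floor.2 (by push_cast; linarith)
  have b2 : ⌊2 * y⌋ < 2 * ⌊y⌋ + 2 := Int.floor_lt.2 (by push_cast; linarith)
  omega

omit [DecidableEq ι] in
theorem NullB_tendsto (u x : ι → ℝ) :
    Tendsto (fun k => pt u k (NullB_z u x k)) atTop (𝓝 x) := by
  rw [tendsto_iff_norm_sub_tendsto_zero]
  refine squeeze_zero (fun k => norm_nonneg _) (fun k => ?_)
    (tendsto_pow_atTop_nhds_zero_of_lt_one (r := 1 / 2) (by norm_num) (by norm_num))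
  refine (pi_norm_le_iff_of_nonneg (by positivity)).2 fun j => ?_
  have hp : (0 : ℝ) < 2 ^ k := by positivity
  have a1 := Int.floor_le (2 ^ k * (x j - u j) : ℝ)
  have a2 := Int.lt_floor_add_one (2 ^ k * (x j - u j) : ℝ)
  have e : (pt u k (NullB_z u x k) - x) j =
      ((⌊2 ^ k * (x j - u j)⌋ : ℝ) - 2 ^ k * (x j - u j)) / 2 ^ k := by
    simp only [pt, NullB_z, Pi.sub_apply]
    field_simp
    ring
  rw [e, Real.norm_eq_abs, abs_div, abs_of_pos hp, one_div_pow]
  apply div_le_div_of_nonneg_right _ hp.le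
  rw [abs_le]
  constructor <;> linarith

theorem NullB_cover {φ : (ι → ℝ) → (ι → ℝ)} (hφ : Continuous φ) (i : ι) (u : ι → ℝ)
    (N : ℕ) {θ R : ℝ} (h0 : 0 < θ) (h1 : θ < 1) (hN : ‖u‖ + R ≤ N)
    (hs : Summable fun k => SS φ u i N k / θ ^ (Fintype.card ι * k)) (K : ℕ) :
    φ '' {x | ‖x‖ ≤ R ∧ x i = u i} ⊆ ⋃ m : ℕ, ⋃ z ∈ Zs i N (m + K), ⋃ e ∈ Es ι,
      closedBall (φ (pt u (m + K) z))
        (‖φ (pt u (m + K + 1) (fun j => 2 * z j + e j)) - φ (pt u (m + K) z)‖ / (1 - θ)) := by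
  rintro _ ⟨x, ⟨hx, hi⟩, rfl⟩
  have hn : Fintype.card ι ≠ 0 := (Fintype.card_pos_iff.2 ⟨i⟩).ne'
  set f : ℕ → ι → ℝ := fun k => φ (pt u k (NullB_z u x k)) with hf
  set d : ℕ → ℝ := fun k => ‖f (k + 1) - f k‖ with hd
  have hstep : ∀ k, (fun j => 2 * NullB_z u x k j +
      (NullB_z u x (k + 1) j - 2 * NullB_z u x k j)) = NullB_z u x (k + 1) := by
    intro k
    funext j
    ring
  have hle : ∀ k, d k ^ Fintype.card ι ≤ SS φ u i N k := by
    intro k
    unfold SS
    refine le_trans ?_ (Finset.single_le_sum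
      (fun z _ => Finset.sum_nonneg fun e _ => by positivity) (NullB_mem_Zs i u x N hN hx hi k))
    refine le_trans ?_ (Finset.single_le_sum (fun e _ => by positivity) (NullB_mem_Es u x k))
    simp only [hstep k]
    exact le_rfl
  have ha0 : ∀ k, 0 ≤ d k / θ ^ k := fun k => by positivity
  have hpow : Tendsto (fun k => (d k / θ ^ k) ^ Fintype.card ι) atTop (𝓝 0) := by
    refine squeeze_zero (fun k => by positivity) (fun k => ?_) hs.tendsto_atTop_zero
    rw [div_pow, ← pow_mul, mul_comm k]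
    exact div_le_div_of_nonneg_right (hle k) (by positivity)
  have ha : Tendsto (fun k => d k / θ ^ k) atTop (𝓝 0) := by
    rw [tendsto_order]
    refine ⟨fun c hc => Eventually.of_forall fun k => hc.trans_le (ha0 k), fun c hc => ?_⟩
    filter_upwards [hpow.eventually (gt_mem_nhds (pow_pos hc (Fintype.card ι)))] with k hk
    exact lt_of_pow_lt_pow_left₀ _ hc.le hk
  obtain ⟨m0, hm0⟩ := NullB_max (b := fun m => d (m + K) / θ ^ (m + K)) (fun m => ha0 _)
    (ha.comp (tendsto_add_atTop_nat K))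
  have hlim : Tendsto (fun m => f (m + (m0 + K))) atTop (𝓝 (φ x)) :=
    ((hφ.tendsto x).comp (NullB_tendsto u x)).comp (tendsto_add_atTop_nat (m0 + K))
  have hgeo : ∀ m, dist (f (m + (m0 + K))) (f (m + 1 + (m0 + K))) ≤ d (m0 + K) * θ ^ m := by
    intro m
    have h2 := hm0 (m + m0)
    have e1 : m + 1 + (m0 + K) = m + m0 + K + 1 := by ring
    have e2 : m + (m0 + K) = m + m0 + K := by ring
    rw [e1, e2, dist_comm, dist_eq_norm]
    change d (m + m0 + K) ≤ _
    rw [div_le_div_iff₀ (by positivity) (by positivity), ← e2, pow_add θ m, ← mul_assoc] at h2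
    rw [← e2]
    exact le_of_mul_le_mul_right h2 (by positivity)
  have hfin := dist_le_of_le_geometric_of_tendsto₀ θ (d (m0 + K)) h1 hgeo hlim
  simp only [mem_iUnion]
  refine ⟨m0, NullB_z u x (m0 + K), NullB_mem_Zs i u x N hN hx hi _, _,
    NullB_mem_Es u x (m0 + K), ?_⟩
  simp only [hstep]
  rw [mem_closedBall, dist_comm]
  simpa using hfin

theorem null_of_summable {φ : (ι → ℝ) → (ι → ℝ)} (hφ : Continuous φ) (i : ι) (u : ι → ℝ)
    (N : ℕ) {θ R : ℝ} (h0 : 0 < θ) (h1 : θ < 1) (hN : ‖u‖ + R ≤ N)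
    (hs : Summable fun k => SS φ u i N k / θ ^ (Fintype.card ι * k)) :
    volume (φ '' {x | ‖x‖ ≤ R ∧ x i = u i}) = 0 := by
  have hθ : 0 < 1 - θ := by linarith
  have hS0 : ∀ k, 0 ≤ SS φ u i N k := fun k =>
    Finset.sum_nonneg fun z _ => Finset.sum_nonneg fun e _ => by positivity
  have hS : Summable (SS φ u i N) := by
    refine Summable.of_nonneg_of_le hS0 (fun k => ?_) hs
    exact le_div_self (hS0 k) (by positivity) (pow_le_one₀ h0.le h1.le)
  set c : ℝ := (2 / (1 - θ)) ^ Fintype.card ι with hc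
  have hc0 : 0 ≤ c := by positivity
  have hb : ∀ K, volume (φ '' {x | ‖x‖ ≤ R ∧ x i = u i}) ≤
      ENNReal.ofReal (∑' m, c * SS φ u i N (m + K)) := by
    intro K
    refine (measure_mono (NullB_cover hφ i u N h0 h1 hN hs K)).trans
      ((measure_iUnion_le _).trans ?_)
    rw [ENNReal.ofReal_tsum_of_nonneg (fun m => mul_nonneg hc0 (hS0 _))
      (((summable_nat_add_iff K).2 hS).mul_left c)]
    refine ENNReal.tsum_le_tsum fun m => ?_
    refine (measure_biUnion_finset_le _ _).trans ?_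
    unfold SS
    rw [Finset.mul_sum, ENNReal.ofReal_sum_of_nonneg
      (fun z _ => mul_nonneg hc0 (Finset.sum_nonneg fun e _ => by positivity))]
    refine Finset.sum_le_sum fun z _ => ?_
    refine (measure_biUnion_finset_le _ _).trans ?_
    rw [Finset.mul_sum, ENNReal.ofReal_sum_of_nonneg (fun e _ => by positivity)]
    refine Finset.sum_le_sum fun e _ => ?_
    rw [Real.volume_pi_closedBall _ (by positivity), hc, ← mul_pow]
    apply le_of_eq
    congr 2
    ring
  have ht : Tendsto (fun K => ENNReal.ofReal (∑' m, c * SS φ u i N (m + K))) atTop (𝓝 0) := by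
    have := ENNReal.tendsto_ofReal (tendsto_sum_nat_add (fun k => c * SS φ u i N k))
    simpa using this
  exact le_antisymm (ge_of_tendsto' ht hb) zero_le

end Vale.Agent.P228
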