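import Vale.Agent.P228.NullA
import Vale.Agent.P228.NullB

namespace Vale.Agent.P228

open MeasureTheory Set Metric Filter Topology Vale.Agent.Lib.Degree

variable {ι : Type} [Fintype ι] [DecidableEq ι]

theorem thin_of_reg {φ : (ι → ℝ) → (ι → ℝ)} (hφ : Continuous φ)
    (h : ∀ R : ℝ, ∃ C β : ℝ, (Fintype.card ι : ℝ) - 1 < β ∧ Reg φ R C β) : Thin φ := by
  intro R i a b hab
  obtain ⟨C, β, hβ, hr⟩ := h (|a| + |b| + (⌈|a| + |b| + 1 + R⌉₊ : ℕ) + 1)
  obtain ⟨u, θ, hu, hu', h0, h1, hs⟩ := exists_shift hφ i hab _ hβ hr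
  refine ⟨u i, hu, null_of_summable hφ i u _ h0 h1 ?_ hs⟩
  have := Nat.le_ceil (|a| + |b| + 1 + R)
  linarith

theorem exists_generic {φ : (ι → ℝ) → (ι → ℝ)} (h : Thin φ) (R : ℝ) {O : Set (ι → ℝ)}
    (ho : IsOpen O) (hne : O.Nonempty) :
    ∃ y ∈ O, ∀ (i : ι) (a b : ℝ), a < b → ∃ t ∈ Ioo a b, ∀ x, ‖x‖ ≤ R → φ x = y → x i ≠ t := by
  have h1 : ∀ q : {q : ι × ℚ × ℚ // q.2.1 < q.2.2}, ∃ t ∈ Ioo (q.1.2.1 : ℝ) (q.1.2.2 : ℝ),
      volume (φ '' {x | ‖x‖ ≤ R ∧ x q.1.1 = t}) = 0 :=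
    fun q => h R q.1.1 _ _ (by exact_mod_cast q.2)
  choose t ht hz using h1
  have h2 : volume (⋃ q, φ '' {x | ‖x‖ ≤ R ∧ x q.1.1 = t q}) = 0 := measure_iUnion_null hz
  have h3 : ¬ O ⊆ ⋃ q, φ '' {x | ‖x‖ ≤ R ∧ x q.1.1 = t q} := fun hs =>
    (ho.measure_pos volume hne).ne' (measure_mono_null hs h2)
  obtain ⟨y, hy, hy'⟩ := not_subset.1 h3
  refine ⟨y, hy, fun i a b hab => ?_⟩
  obtain ⟨a', ha, ha'⟩ := exists_rat_btwn hab
  obtain ⟨b', hb, hb'⟩ := exists_rat_btwn ha'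
  have hq : a' < b' := by exact_mod_cast hb
  have h4 := ht ⟨(i, a', b'), hq⟩
  refine ⟨t ⟨(i, a', b'), hq⟩, ⟨ha.trans h4.1, h4.2.trans hb'⟩, fun x hx hxy hxi => hy' ?_⟩
  exact mem_iUnion.2 ⟨⟨(i, a', b'), hq⟩, x, ⟨hx, hxi⟩, hxy⟩

theorem regA_of {p : ℕ} [Fact p.Prime] {A : ℤ_[p] → (ι → ℝ) → (ι → ℝ)} (hA : IsAct A)
    (h : ∀ R : ℝ, ∃ C q β : ℝ, 0 < q ∧ q ≤ Fintype.card ι ∧ (Fintype.card ι : ℝ) - 1 < β ∧
      ∀ (t : ℤ_[p]) (v : ι → ℝ), ‖v‖ ≤ 1 →
        ∫ x in closedBall (0 : ι → ℝ) R, ‖A t (x + v) - A t x‖ ^ q ≤ C * ‖v‖ ^ β) : RegA A := by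
  intro R
  obtain ⟨C, q, β, hq, hqn, hβ, hC⟩ := h R
  have hK : IsCompact ((univ : Set ℤ_[p]) ×ˢ closedBall (0 : ι → ℝ) (R + 1)) :=
    isCompact_univ.prod (isCompact_closedBall _ _)
  obtain ⟨M, hM⟩ := hK.exists_bound_of_continuousOn hA.1.continuousOn
  refine ⟨(2 * |M|) ^ ((Fintype.card ι : ℝ) - q) * C, β, hβ, fun t v hv => ?_⟩
  have hc : Continuous (A t) := hA.1.comp (continuous_const.prodMk continuous_id)
  have hd : Continuous fun x : ι → ℝ => ‖A t (x + v) - A t x‖ :=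
    ((hc.comp (continuous_id.add continuous_const)).sub hc).norm
  have hM0 : 0 ≤ (2 * |M|) ^ ((Fintype.card ι : ℝ) - q) := by positivity
  have hi : IntegrableOn (fun x : ι → ℝ => ‖A t (x + v) - A t x‖ ^ q) (closedBall 0 R) :=
    (hd.rpow_const fun _ => Or.inr hq.le).continuousOn.integrableOn_compact
      (isCompact_closedBall _ _)
  calc ∫ x in closedBall (0 : ι → ℝ) R, ‖A t (x + v) - A t x‖ ^ Fintype.card ι
      ≤ ∫ x in closedBall (0 : ι → ℝ) R,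
          (2 * |M|) ^ ((Fintype.card ι : ℝ) - q) * ‖A t (x + v) - A t x‖ ^ q := by
        refine setIntegral_mono_on ((hd.pow _).continuousOn.integrableOn_compact
          (isCompact_closedBall _ _)) (hi.const_mul _) measurableSet_closedBall fun x hx => ?_
        have hx' : ‖x‖ ≤ R := by simpa using hx
        have a1 := hM (t, x + v) ⟨mem_univ _, by
          simpa using (norm_add_le x v).trans (add_le_add hx' hv)⟩
        have a2 := hM (t, x) ⟨mem_univ _, by simpa using hx'.trans (by linarith)⟩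
        have a3 : ‖A t (x + v) - A t x‖ ≤ 2 * |M| := by
          have := norm_sub_le (A t (x + v)) (A t x)
          have := le_abs_self M
          simp only at a1 a2
          linarith
        have e : (Fintype.card ι : ℝ) = ((Fintype.card ι : ℝ) - q) + q := by ring
        rw [← Real.rpow_natCast, e, Real.rpow_add_of_nonneg (norm_nonneg _) (by linarith) hq.le,
          ← e]
        exact mul_le_mul_of_nonneg_right
          (Real.rpow_le_rpow (norm_nonneg _) a3 (by linarith)) (by positivity)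
    _ ≤ _ := by
        rw [integral_const_mul, mul_assoc]
        exact mul_le_mul_of_nonneg_left (hC t v hv) hM0

end Vale.Agent.P228
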