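import Vale.Agent.P228.Base

namespace Vale.Agent.P228

open MeasureTheory Set Metric Filter Topology Vale.Agent.Lib.Degree

variable {ι : Type} [Fintype ι] [DecidableEq ι]

omit [DecidableEq ι] in
theorem geo_min {W : Set (ι → ℝ)} (ho : IsOpen W) (c : ι → ℝ) (hne : W ≠ univ) :
    ∃ z, z ∉ W ∧ ∀ x, x ∉ W → ∑ i, (z i - c i) ^ 2 ≤ ∑ i, (x i - c i) ^ 2 := by
  obtain ⟨x1, hx1⟩ := (ne_univ_iff_exists_notMem W).1 hne
  have hQ : Continuous fun x : ι → ℝ => ∑ i, (x i - c i) ^ 2 := by fun_prop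
  have hK : IsCompact (Wᶜ ∩ {x : ι → ℝ | ∑ i, (x i - c i) ^ 2 ≤ ∑ i, (x1 i - c i) ^ 2}) := by
    refine (isCompact_closedBall c √(∑ i, (x1 i - c i) ^ 2)).of_isClosed_subset
      (ho.isClosed_compl.inter (isClosed_le hQ continuous_const)) fun x hx => ?_
    rw [mem_closedBall, dist_eq_norm, pi_norm_le_iff_of_nonneg (Real.sqrt_nonneg _)]
    intro i
    rw [Real.norm_eq_abs, Pi.sub_apply]
    refine Real.abs_le_sqrt (le_trans ?_ hx.2)
    exact Finset.single_le_sum (f := fun i => (x i - c i) ^ 2) (fun j _ => sq_nonneg _)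
      (Finset.mem_univ i)
  obtain ⟨z, hz, hmin⟩ := hK.exists_isMinOn ⟨x1, hx1, le_refl (∑ i, (x1 i - c i) ^ 2)⟩
    hQ.continuousOn
  refine ⟨z, hz.1, fun x hx => ?_⟩
  rcases le_total (∑ i, (x i - c i) ^ 2) (∑ i, (x1 i - c i) ^ 2) with h | h
  · exact hmin ⟨hx, h⟩
  · exact le_trans hz.2 h

omit [DecidableEq ι] in
theorem geo_closure (c x : ι → ℝ) {r : ℝ} (hr : 0 < r) (hx : ∑ i, (x i - c i) ^ 2 = r) :
    x ∈ closure {y : ι → ℝ | ∑ i, (y i - c i) ^ 2 < r} := by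
  have hc : Continuous fun t : ℝ => c + t • (x - c) := by fun_prop
  have h1 : Tendsto (fun t : ℝ => c + t • (x - c)) (𝓝[<] 1) (𝓝 x) := by
    have := (hc.tendsto 1).mono_left (nhdsWithin_le_nhds (s := Iio 1))
    simpa using this
  refine mem_closure_of_tendsto h1 ?_
  filter_upwards [Ioo_mem_nhdsLT (show (0 : ℝ) < 1 by norm_num)] with t ht
  have h2 : ∑ i, ((c + t • (x - c)) i - c i) ^ 2 = t ^ 2 * r := by
    rw [← hx, Finset.mul_sum]
    refine Finset.sum_congr rfl fun i _ => ?_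
    simp only [Pi.add_apply, Pi.smul_apply, Pi.sub_apply, smul_eq_mul]
    ring
  show ∑ i, ((c + t • (x - c)) i - c i) ^ 2 < r
  rw [h2]
  have h3 : t ^ 2 < 1 := by nlinarith [ht.1, ht.2]
  nlinarith

omit [DecidableEq ι] in
theorem geo_lip (z x x' : ι → ℝ) {ε : ℝ} (hx : x ∈ closedBall z ε) (hx' : x' ∈ closedBall z ε) :
    |∑ i, (x i - z i) ^ 2 - ∑ i, (x' i - z i) ^ 2| ≤ Fintype.card ι * (‖x - x'‖ * (2 * ε)) := by
  rw [← Finset.sum_sub_distrib]
  refine (Finset.abs_sum_le_sum_abs _ _).trans ?_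
  rw [← Finset.card_univ, ← nsmul_eq_mul]
  refine Finset.sum_le_card_nsmul _ _ _ fun i _ => ?_
  rw [mem_closedBall, dist_eq_norm] at hx hx'
  have h1 : |x i - z i| ≤ ε := (norm_le_pi_norm (x - z) i).trans hx
  have h2 : |x' i - z i| ≤ ε := (norm_le_pi_norm (x' - z) i).trans hx'
  have h3 : |x i - x' i| ≤ ‖x - x'‖ := norm_le_pi_norm (x - x') i
  have h4 : (x i - z i) ^ 2 - (x' i - z i) ^ 2 = (x i - x' i) * ((x i - z i) + (x' i - z i)) := by
    ring
  rw [h4, abs_mul]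
  refine mul_le_mul h3 ((abs_add_le _ _).trans (by linarith)) (abs_nonneg _) (norm_nonneg _)

theorem exists_touch {W : Set (ι → ℝ)} (ho : IsOpen W) {c : ι → ℝ} (hc : c ∈ W)
    (hne : W ≠ univ) :
    ∃ (z : ι → ℝ) (ψ : (ι → ℝ) → (ι → ℝ)) (l : (ι → ℝ) →L[ℝ] ℝ) (ε : ℝ), z ∉ W ∧ 0 < ε ∧
      ContDiff ℝ 1 ψ ∧ ψ z = z ∧
      (∀ x ∈ closedBall z ε, ∀ x' ∈ closedBall z ε, ‖ψ x - ψ x' - (x - x')‖ ≤ ‖x - x'‖ / 2) ∧
      (∀ x, l (ψ x) < l z → x ∈ W) ∧ (∀ x, l (ψ x) = l z → x ∈ closure W) ∧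
      ∀ η > (0 : ℝ), ∃ x0 ∈ ball z η, l (ψ x0) < l z := by
  obtain ⟨z, hz, hmin⟩ := geo_min ho c hne
  obtain ⟨r, hr⟩ : ∃ r : ℝ, ∑ i, (z i - c i) ^ 2 = r := ⟨_, rfl⟩
  have hr0 : 0 < r := by
    rw [← hr]
    refine lt_of_le_of_ne (Finset.sum_nonneg fun i _ => sq_nonneg _) fun h => hz ?_
    have h1 := (Finset.sum_eq_zero_iff_of_nonneg fun i _ => sq_nonneg (z i - c i)).1 h.symm
    have h2 : z = c := funext fun i => by
      have := h1 i (Finset.mem_univ i)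
      exact sub_eq_zero.1 (pow_eq_zero_iff two_ne_zero |>.1 this)
    rw [h2]
    exact hc
  have hW : {y : ι → ℝ | ∑ i, (y i - c i) ^ 2 < r} ⊆ W := fun y hy => by
    by_contra h
    have h1 := hmin y h
    rw [hr] at h1
    exact absurd hy (not_lt.2 h1)
  let l : (ι → ℝ) →L[ℝ] ℝ := ∑ i, (z i - c i) • ContinuousLinearMap.proj i
  have hl : ∀ v, l v = ∑ i, (z i - c i) * v i := fun v => by
    simp [l]
  let ψ : (ι → ℝ) → (ι → ℝ) := fun x => x + ((∑ i, (x i - z i) ^ 2) / (2 * r)) • (z - c)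
  have key : ∀ x, l (ψ x) - l z = (∑ i, (x i - c i) ^ 2 - r) / 2 := by
    intro x
    have h1 : l (z - c) = r := by
      rw [hl, ← hr]
      exact Finset.sum_congr rfl fun i _ => by rw [Pi.sub_apply]; ring
    have h2 : ∑ i, (x i - c i) ^ 2 = ∑ i, (x i - z i) ^ 2 + 2 * (l x - l z) + r := by
      rw [hl, hl, ← hr, ← Finset.sum_sub_distrib, Finset.mul_sum, ← Finset.sum_add_distrib,
        ← Finset.sum_add_distrib]
      exact Finset.sum_congr rfl fun i _ => by ring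
    simp only [ψ, map_add, map_smul, smul_eq_mul]
    rw [h1, h2]
    field_simp
    ring
  obtain ⟨m, hm⟩ : ∃ m : ℝ, m = Fintype.card ι * ‖z - c‖ := ⟨_, rfl⟩
  have hm0 : 0 ≤ m := by rw [hm]; positivity
  refine ⟨z, ψ, l, r / (2 * (m + 1)), hz, by positivity, ?_, by simp [ψ], fun x hx x' hx' => ?_,
    fun x h => hW ?_, fun x h => closure_mono hW (geo_closure c x hr0 ?_), fun η hη => ?_⟩
  · simp only [ψ]
    fun_prop
  · have h1 : ψ x - ψ x' - (x - x') =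
        ((∑ i, (x i - z i) ^ 2 - ∑ i, (x' i - z i) ^ 2) / (2 * r)) • (z - c) := by
      simp only [ψ]
      rw [sub_div, sub_smul]
      abel
    have h2 := geo_lip z x x' hx hx'
    rw [h1, norm_smul, Real.norm_eq_abs, abs_div, abs_of_pos (by positivity : 0 < 2 * r)]
    have h3 : 0 ≤ ‖x - x'‖ := norm_nonneg _
    calc _ ≤ Fintype.card ι * (‖x - x'‖ * (2 * (r / (2 * (m + 1))))) / (2 * r) * ‖z - c‖ := by
          gcongr
      _ = ‖x - x'‖ / 2 * (m / (m + 1)) := by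
          rw [hm]
          field_simp
      _ ≤ ‖x - x'‖ / 2 * 1 := by
          gcongr
          rw [div_le_one (by positivity)]
          linarith
      _ = ‖x - x'‖ / 2 := mul_one _
  · have := key x
    show ∑ i, (x i - c i) ^ 2 < r
    linarith
  · have := key x
    linarith
  · obtain ⟨y, hy, hy'⟩ := Metric.mem_closure_iff.1 (geo_closure c z hr0 hr) η hη
    refine ⟨y, by rwa [mem_ball, dist_comm], ?_⟩
    have h1 := key y
    have h2 : ∑ i, (y i - c i) ^ 2 < r := hy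
    linarith

end Vale.Agent.P228
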