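import Vale.Agent.P228.Main
import Vale.Agent.P228.AvgG

namespace Vale.Agent.P228

open MeasureTheory Set Metric Filter Topology Vale.Agent.Lib.Degree

variable {ι : Type} [Fintype ι] [DecidableEq ι]

theorem Ind.generic {φ : (ι → ℝ) → (ι → ℝ)} (hφ : Continuous φ) (M : ℕ) {C β : ℝ}
    (hβ : (Fintype.card ι : ℝ) - 1 < β) (h : Reg φ (5 * M + 2) C β) {O : Set (ι → ℝ)}
    (ho : IsOpen O) (hne : O.Nonempty) :
    ∃ y ∈ O, ∀ (i : ι) (a b : ℝ), a < b → ∃ t ∈ Ioo a b, ∀ x, ‖x‖ ≤ M → φ x = y → x i ≠ t := by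
  have hM : (0 : ℝ) ≤ M := Nat.cast_nonneg _
  have h1 : ∀ (i : ι) (a b : ℚ), ∃ t : ℝ, ((a : ℝ) < b → t ∈ Ioo (a : ℝ) b) ∧
      volume (φ '' {x | ‖x‖ ≤ M ∧ x i = t}) = 0 := by
    intro i a b
    have hout : ∀ t : ℝ, (M : ℝ) < |t| → volume (φ '' {x | ‖x‖ ≤ M ∧ x i = t}) = 0 := by
      intro t ht
      have : {x : ι → ℝ | ‖x‖ ≤ M ∧ x i = t} = ∅ := by
        ext x
        simp only [mem_ofPred_eq, mem_empty_iff_false, iff_false, not_and]
        intro hx hxt
        have := norm_le_pi_norm x i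
        rw [hxt, Real.norm_eq_abs] at this
        linarith
      rw [this]; simp
    by_cases hab : (a : ℝ) < b
    swap
    · exact ⟨M + 1, fun h => absurd h hab, hout _ (by rw [abs_of_nonneg (by linarith)]; linarith)⟩
    by_cases hb : (M : ℝ) < b
    · obtain ⟨t, ht1, ht2⟩ := exists_between (max_lt hab hb)
      exact ⟨t, fun _ => ⟨(le_max_left _ _).trans_lt ht1, ht2⟩,
        hout t (((le_max_right _ _).trans_lt ht1).trans_le (le_abs_self t))⟩
    by_cases ha : (a : ℝ) < -M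
    · obtain ⟨t, ht1, ht2⟩ := exists_between (lt_min hab ha)
      refine ⟨t, fun _ => ⟨ht1, ht2.trans_le (min_le_left _ _)⟩, hout t ?_⟩
      have := ht2.trans_le (min_le_right _ _)
      have := neg_abs_le t
      linarith
    have ha' : |(a : ℝ)| ≤ M := abs_le.2 ⟨by linarith, by linarith⟩
    have hb' : |(b : ℝ)| ≤ M := abs_le.2 ⟨by linarith, by linarith⟩
    have hreg : Reg φ (|(a : ℝ)| + |(b : ℝ)| + ((3 * M + 1 : ℕ) : ℝ) + 1) C β := by
      intro v hv
      refine le_trans ?_ (h v hv)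
      have hc : Continuous fun x => ‖φ (x + v) - φ x‖ ^ Fintype.card ι := by fun_prop
      refine setIntegral_mono_set (hc.continuousOn.integrableOn_compact (isCompact_closedBall _ _))
        (Eventually.of_forall fun x => by positivity) (LE.le.eventuallyLE ?_)
      refine closedBall_subset_closedBall ?_
      push_cast
      linarith
    obtain ⟨u, θ, hu, hun, h0, h1, hs⟩ := exists_shift hφ i hab (3 * M + 1) hβ hreg
    exact ⟨u i, fun _ => hu, null_of_summable hφ i u (3 * M + 1) h0 h1 (by push_cast; linarith) hs⟩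
  choose t ht hnull using h1
  have hN : volume (⋃ q : ι × ℚ × ℚ, φ '' {x | ‖x‖ ≤ M ∧ x q.1 = t q.1 q.2.1 q.2.2}) = 0 :=
    measure_iUnion_null fun q => hnull _ _ _
  have : ¬ O ⊆ ⋃ q : ι × ℚ × ℚ, φ '' {x | ‖x‖ ≤ M ∧ x q.1 = t q.1 q.2.1 q.2.2} := fun hs =>
    (ho.measure_pos volume hne).ne' (measure_mono_null hs hN)
  obtain ⟨y, hy, hyn⟩ := not_subset.1 this
  refine ⟨y, hy, fun i a b hab => ?_⟩
  obtain ⟨a', ha1, ha2⟩ := exists_rat_btwn hab
  obtain ⟨b', hb1, hb2⟩ := exists_rat_btwn ha2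
  have := ht i a' b' hb1
  refine ⟨t i a' b', ⟨ha1.trans this.1, this.2.trans hb2⟩, fun x hx hxy hxt => hyn ?_⟩
  exact mem_iUnion.2 ⟨(i, a', b'), x, ⟨hx, hxt⟩, hxy⟩

omit [DecidableEq ι] in
theorem Ind.mono (h0 : 0 < Fintype.card ι) {φ : (ι → ℝ) → (ι → ℝ)} {R C C' β β' : ℝ}
    (hr : Reg φ R C β) (hC : C ≤ C') (hC0 : 0 ≤ C') (hb : β' ≤ β) : Reg φ R C' β' := by
  intro v hv
  by_cases hv0 : v = 0
  · subst hv0
    simp only [add_zero, sub_self, norm_zero, zero_pow h0.ne', integral_zero]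
    positivity
  · have hp : 0 < ‖v‖ := norm_pos_iff.2 hv0
    refine (hr v hv).trans ?_
    calc C * ‖v‖ ^ β ≤ C' * ‖v‖ ^ β := mul_le_mul_of_nonneg_right hC (by positivity)
      _ ≤ _ := mul_le_mul_of_nonneg_left (Real.rpow_le_rpow_of_exponent_ge hp hv hb) hC0

omit [DecidableEq ι] in
theorem Ind.baire (h0 : 0 < Fintype.card ι) {p : ℕ} [Fact p.Prime] {A : ℤ_[p] → (ι → ℝ) → (ι → ℝ)} (hA : IsAct A) (R : ℝ)
    (h : ∀ t, ∃ C β : ℝ, (Fintype.card ι : ℝ) - 1 < β ∧ Reg (A t) R C β) :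
    ∃ (t0 : ℤ_[p]) (j : ℕ) (C β : ℝ), (Fintype.card ι : ℝ) - 1 < β ∧
      ∀ t, Reg (A (t0 + (p : ℤ_[p]) ^ j * t)) R C β := by
  let b : ℕ → ℝ := fun m => (Fintype.card ι : ℝ) - 1 + 1 / ((m : ℝ) + 1)
  let S : ℕ → Set ℤ_[p] := fun m => {t | Reg (A t) R m (b m)}
  have hcl : ∀ m, IsClosed (S m) := by
    intro m
    have : S m = ⋂ v : ι → ℝ, ⋂ _ : ‖v‖ ≤ 1, {t | ∫ x in closedBall (0 : ι → ℝ) R,
        ‖A t (x + v) - A t x‖ ^ Fintype.card ι ≤ m * ‖v‖ ^ b m} := by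
      ext t; simp [S, Reg]
    rw [this]
    refine isClosed_iInter fun v => isClosed_iInter fun _ => isClosed_le ?_ continuous_const
    refine continuous_parametric_integral_of_continuous
      (f := fun t x => ‖A t (x + v) - A t x‖ ^ Fintype.card ι) ?_ (isCompact_closedBall _ _)
    refine Continuous.pow (Continuous.norm (Continuous.sub ?_ hA.1)) _
    exact hA.1.comp (continuous_fst.prodMk (continuous_snd.add continuous_const))
  have hun : ⋃ m, S m = univ := by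
    refine eq_univ_of_forall fun t => ?_
    obtain ⟨C, β, hβ, hr⟩ := h t
    obtain ⟨m1, hm1⟩ := exists_nat_one_div_lt (sub_pos.2 hβ)
    obtain ⟨m2, hm2⟩ := exists_nat_ge C
    refine mem_iUnion.2 ⟨max m1 m2, ?_⟩
    have hb : b (max m1 m2) ≤ β := by
      have : 1 / (((max m1 m2 : ℕ) : ℝ) + 1) ≤ 1 / ((m1 : ℝ) + 1) :=
        one_div_le_one_div_of_le (by positivity) (by
          have : (m1 : ℝ) ≤ ((max m1 m2 : ℕ) : ℝ) := by exact_mod_cast le_max_left _ _
          linarith)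
      simp only [b]
      linarith
    have hC : C ≤ ((max m1 m2 : ℕ) : ℝ) := hm2.trans (by exact_mod_cast le_max_right _ _)
    exact Ind.mono h0 hr hC (Nat.cast_nonneg _) hb
  obtain ⟨m, t0, ht0⟩ := nonempty_interior_of_iUnion_of_closed hcl hun
  obtain ⟨ε, hε, hball⟩ := Metric.isOpen_iff.1 isOpen_interior t0 ht0
  have hp1 : ‖(p : ℤ_[p])‖ < 1 := by
    rw [PadicInt.norm_p]
    exact inv_lt_one_of_one_lt₀ (by exact_mod_cast (Fact.out : p.Prime).one_lt)
  obtain ⟨j, hj⟩ := exists_pow_lt_of_lt_one hε hp1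
  refine ⟨t0, j, m, b m, by simp only [b]; have : (0 : ℝ) < 1 / ((m : ℝ) + 1) := by positivity
                            linarith, fun t => ?_⟩
  refine (interior_subset (hball ?_) : _ ∈ S m)
  rw [mem_ball, dist_eq_norm, add_sub_cancel_left, norm_mul, norm_pow]
  exact (mul_le_of_le_one_right (by positivity) (PadicInt.norm_le_one t)).trans_lt hj

omit [Fintype ι] [DecidableEq ι] in
theorem Ind.act {p : ℕ} [Fact p.Prime] {A : ℤ_[p] → (ι → ℝ) → (ι → ℝ)} (hA : IsAct A)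
    (c : ℤ_[p]) : IsAct fun t : ℤ_[p] => A (c * t) :=
  ⟨hA.1.comp ((continuous_const.mul continuous_fst).prodMk continuous_snd),
    fun x => by simp only [mul_zero, hA.2.1], fun s t x => by simp only [mul_add, hA.2.2]⟩

theorem Ind.fix (h0 : 0 < Fintype.card ι) {p : ℕ} [Fact p.Prime]
    {A : ℤ_[p] → (ι → ℝ) → (ι → ℝ)} (hA : IsAct A)
    (h : ∀ t R, ∃ C β : ℝ, (Fintype.card ι : ℝ) - 1 < β ∧ Reg (A t) R C β) (M : ℕ) :
    ∃ j : ℕ, ∀ t x, ‖x‖ ≤ M → A ((p : ℤ_[p]) ^ j * t) x = x := by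
  have hM : (0 : ℝ) ≤ M := Nat.cast_nonneg _
  obtain ⟨k, hk⟩ := exists_small hA (isCompact_closedBall (0 : ι → ℝ) (M + 2))
    (show (0 : ℝ) < 1 / 8 by norm_num)
  set B : ℤ_[p] → (ι → ℝ) → (ι → ℝ) := fun t => A ((p : ℤ_[p]) ^ k * t) with hBdef
  have hB : IsAct B := Ind.act hA _
  have hclose : ∀ t x, ‖x‖ ≤ M + 2 → ‖B t x - x‖ ≤ 1 / 8 := fun t x hx =>
    (hk t x (mem_closedBall_zero_iff.2 hx)).le
  obtain ⟨t0, j, C, β, hβ, hreg⟩ := Ind.baire h0 hB (5 * ((M + 2 : ℕ) : ℝ) + 2) fun t => h _ _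
  set D : ℤ_[p] → (ι → ℝ) → (ι → ℝ) := fun t => B ((p : ℤ_[p]) ^ j * t) with hDdef
  have hD : IsAct D := Ind.act hB _
  obtain ⟨φ, hφ, hφr, hφi, hφc⟩ := avg_gen (F := fun t => B (t0 + (p : ℤ_[p]) ^ j * t))
    (hB.1.comp ((continuous_const.add (continuous_const.mul continuous_fst)).prodMk continuous_snd))
  have hinv : ∀ s x, φ (D s x) = φ x := fun s x => hφi x _ s fun t => by
    simp only [hDdef, ← hB.2.2, mul_add, add_assoc]
  have hφx : ∀ x, ‖x‖ ≤ M + 2 → ‖φ x - x‖ ≤ 1 / 8 := fun x hx =>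
    hφc x x _ fun t => hclose _ x hx
  have hpos : Pos (D 1) := pos_of_close (hD.homeo 1) fun x hx =>
    hclose _ x ((mem_closedBall_zero_iff.1 hx).trans (by linarith))
  have hFc : IsClosed {y | ∀ t, D t (B (-t0) y) = B (-t0) y} := by
    have : {y | ∀ t, D t (B (-t0) y) = B (-t0) y} = ⋂ t, {y | D t (B (-t0) y) = B (-t0) y} := by
      ext y; simp
    rw [this]
    exact isClosed_iInter fun t => isClosed_eq
      ((hD.homeo t).continuous.comp (hB.homeo (-t0)).continuous) (hB.homeo (-t0)).continuous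
  have hall : ∀ y ∈ ball (0 : ι → ℝ) (M + 1), ∀ t, D t (B (-t0) y) = B (-t0) y := by
    by_contra hcon
    have hne : (ball (0 : ι → ℝ) (M + 1) \ {y | ∀ t, D t (B (-t0) y) = B (-t0) y}).Nonempty := by
      by_contra h2
      exact hcon fun y hy => by
        by_contra h3
        exact h2 ⟨y, hy, h3⟩
    obtain ⟨y, ⟨hy, hyn⟩, hgen⟩ := Ind.generic hφ (M + 2) hβ (hφr _ _ _ hreg)
      (isOpen_ball.sdiff hFc) hne
    rw [mem_ball_zero_iff] at hy
    have hnear : ∀ x, ‖x‖ ≤ M + 2 → φ x = y → ‖x‖ ≤ M + 1 + 1 / 8 := by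
      intro x hx hxy
      have h1 := hφx x hx
      rw [hxy] at h1
      have h2 := norm_sub_norm_le x y
      rw [norm_sub_rev] at h2
      linarith
    obtain ⟨x, hx, hxy, hxf⟩ := key hD hpos hφ hinv (V := ball 0 (M + 2)) isOpen_ball
      isBounded_ball y
      (fun x hx hxy => by
        rw [frontier_ball _ (by linarith : (M : ℝ) + 2 ≠ 0), mem_sphere_zero_iff_norm] at hx
        have := hnear x hx.le hxy
        linarith)
      (deg_near (by fun_prop) 0 (by linarith) fun x hx => by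
        rw [dist_zero_right] at hx
        have h1 := hφx x hx.le
        have h2 : φ x - y - (x - 0) = (φ x - x) - y := by abel
        rw [h2]
        have := norm_sub_le (φ x - x) y
        linarith)
      (fun x hx hxy t => by
        rw [mem_ball_zero_iff] at hx ⊢
        have h1 := hnear x hx.le hxy
        have h2 : ‖D t x - x‖ ≤ 1 / 8 := hclose _ x hx.le
        have h3 := norm_sub_norm_le (D t x) x
        linarith)
      (fun i a b hab => by
        obtain ⟨t, ht, ht'⟩ := hgen i a b hab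
        refine ⟨t, ht, fun x hx => ht' x ?_⟩
        push_cast
        exact (mem_ball_zero_iff.1 hx).le)
    have h1 : φ x = B t0 x := by
      have := hφc x (B t0 x) 0 fun t => by
        have h2 : B ((p : ℤ_[p]) ^ j * t) x = x := hxf t
        simp only [hB.2.2, h2, sub_self, norm_zero, le_refl]
      exact sub_eq_zero.1 (norm_le_zero_iff.1 this)
    apply hyn
    have h2 : B (-t0) y = x := by rw [← hxy, h1, ← hB.2.2, neg_add_cancel, hB.2.1]
    simp only [mem_ofPred_eq, h2]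
    exact hxf
  refine ⟨k + j, fun t x hx => ?_⟩
  have h1 : ‖B t0 x‖ < M + 1 := by
    have h2 := hclose t0 x (by linarith)
    have h3 := norm_sub_norm_le (B t0 x) x
    linarith
  have h2 := hall _ (mem_ball_zero_iff.2 h1) t
  rw [← hB.2.2, neg_add_cancel, hB.2.1] at h2
  rw [pow_add, mul_assoc]
  exact h2

theorem regA_of_each (h0 : 0 < Fintype.card ι) {p : ℕ} [Fact p.Prime]
    {A : ℤ_[p] → (ι → ℝ) → (ι → ℝ)} (hA : IsAct A)
    (h : ∀ t R, ∃ C β : ℝ, (Fintype.card ι : ℝ) - 1 < β ∧ Reg (A t) R C β) : RegA A := by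
  intro R
  obtain ⟨M, hM⟩ := exists_nat_ge (R + 1)
  obtain ⟨j, hj⟩ := Ind.fix h0 hA h M
  choose C β hβ hr using fun a : ℕ => h (a : ℤ_[p]) R
  have hne : (Finset.range (p ^ j)).Nonempty :=
    Finset.nonempty_range_iff.2 (pow_pos (Fact.out : p.Prime).pos j).ne'
  obtain ⟨a1, -, ha1⟩ := Finset.exists_max_image _ C hne
  obtain ⟨a2, -, ha2⟩ := Finset.exists_min_image _ β hne
  refine ⟨max (C a1) 0, β a2, hβ a2, fun t => ?_⟩
  have hmem : t.appr j ∈ Finset.range (p ^ j) := Finset.mem_range.2 (PadicInt.appr_lt t j)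
  obtain ⟨s, hs⟩ := Ideal.mem_span_singleton'.1 (PadicInt.appr_spec j t)
  have ht : ∀ x, ‖x‖ ≤ M → A t x = A (t.appr j) x := by
    intro x hx
    have : t = (t.appr j : ℤ_[p]) + (p : ℤ_[p]) ^ j * s := by rw [mul_comm, hs]; ring
    conv_lhs => rw [this, hA.2.2, hj s x hx]
  have h1 := Ind.mono h0 (hr (t.appr j)) ((ha1 _ hmem).trans (le_max_left _ 0)) (le_max_right _ _)
    (ha2 _ hmem)
  intro v hv
  refine le_trans (le_of_eq ?_) (h1 v hv)
  refine setIntegral_congr_fun measurableSet_closedBall fun x hx => ?_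
  rw [mem_closedBall_zero_iff] at hx
  have h2 := norm_add_le x v
  rw [ht x (by linarith), ht (x + v) (by linarith)]

omit [DecidableEq ι] in
theorem reg_of_q {φ : (ι → ℝ) → (ι → ℝ)} (hφ : Continuous φ) {R C q β : ℝ} (hq : 0 < q)
    (hqn : q ≤ Fintype.card ι) (h : ∀ v : ι → ℝ, ‖v‖ ≤ 1 →
      ∫ x in closedBall (0 : ι → ℝ) R, ‖φ (x + v) - φ x‖ ^ q ≤ C * ‖v‖ ^ β) :
    ∃ C', Reg φ R C' β := by
  obtain ⟨M, hM⟩ := (isCompact_closedBall (0 : ι → ℝ) (R + 1)).exists_bound_of_continuousOn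
    hφ.continuousOn
  refine ⟨(2 * max M 0) ^ ((Fintype.card ι : ℝ) - q) * C, fun v hv => ?_⟩
  have hK : 0 ≤ (2 * max M 0) ^ ((Fintype.card ι : ℝ) - q) := by positivity
  rw [mul_assoc]
  refine le_trans ?_ (mul_le_mul_of_nonneg_left (h v hv) hK)
  rw [← integral_const_mul]
  have hc : Continuous fun x => ‖φ (x + v) - φ x‖ := by fun_prop
  refine setIntegral_mono_on
    ((hc.pow _).continuousOn.integrableOn_compact (isCompact_closedBall _ _))
    ((continuous_const.mul (hc.rpow_const fun _ => Or.inr hq.le)).continuousOn.integrableOn_compact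
      (isCompact_closedBall _ _)) measurableSet_closedBall fun x hx => ?_
  rw [mem_closedBall_zero_iff] at hx
  have h1 := hM x (mem_closedBall_zero_iff.2 (by linarith))
  have h2 := hM (x + v) (mem_closedBall_zero_iff.2 (by linarith [norm_add_le x v]))
  have h3 : ‖φ (x + v) - φ x‖ ≤ 2 * max M 0 := by
    linarith [norm_sub_le (φ (x + v)) (φ x), le_max_left M 0]
  have h4 : ‖φ (x + v) - φ x‖ ^ Fintype.card ι =
      ‖φ (x + v) - φ x‖ ^ ((Fintype.card ι : ℝ) - q) * ‖φ (x + v) - φ x‖ ^ q := by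
    rw [← Real.rpow_add' (norm_nonneg _) (by linarith), sub_add_cancel, Real.rpow_natCast]
  rw [h4]
  exact mul_le_mul_of_nonneg_right
    (Real.rpow_le_rpow (norm_nonneg _) h3 (by linarith)) (by positivity)

theorem main_each {p : ℕ} [Fact p.Prime] {A : ℤ_[p] → (ι → ℝ) → (ι → ℝ)} (hA : IsAct A)
    (h : ∀ (t : ℤ_[p]) (R : ℝ), ∃ C q β : ℝ, 0 < q ∧ q ≤ Fintype.card ι ∧
      (Fintype.card ι : ℝ) - 1 < β ∧ ∀ v : ι → ℝ, ‖v‖ ≤ 1 →
        ∫ x in closedBall (0 : ι → ℝ) R, ‖A t (x + v) - A t x‖ ^ q ≤ C * ‖v‖ ^ β) :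
    ∃ k : ℕ, ∀ t x, A ((p : ℤ_[p]) ^ k * t) x = x := by
  have h0 : 0 < Fintype.card ι := by
    obtain ⟨C, q, β, h1, h2, -⟩ := h 0 0
    exact_mod_cast h1.trans_le h2
  refine main hA (regA_of_each h0 hA fun t R => ?_)
  obtain ⟨C, q, β, h1, h2, h3, h4⟩ := h t R
  obtain ⟨C', hC'⟩ := reg_of_q (hA.homeo t).continuous h1 h2 h4
  exact ⟨C', β, h3, hC'⟩

end Vale.Agent.P228
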