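import Vale.Agent.P228.PartB
import Vale.Agent.P228.DegC

namespace Vale.Agent.P228

open MeasureTheory Set Metric Filter Topology Vale.Agent.Lib.Degree

variable {ι : Type} [Fintype ι] [DecidableEq ι]

theorem key {p : ℕ} [Fact p.Prime] {A : ℤ_[p] → (ι → ℝ) → (ι → ℝ)} (hA : IsAct A)
    (hpos : Pos (A 1)) {φ : (ι → ℝ) → (ι → ℝ)} (hφ : Continuous φ)
    (hinv : ∀ t x, φ (A t x) = φ x) {V : Set (ι → ℝ)} (ho : IsOpen V)
    (hb : Bornology.IsBounded V) (y : ι → ℝ) (H : ∀ x ∈ frontier V, φ x ≠ y)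
    (hdeg : deg (fun x => φ x - y) V = 1) (hV : ∀ x ∈ V, φ x = y → ∀ t, A t x ∈ V)
    (hgrid : ∀ (i : ι) (a b : ℝ), a < b → ∃ t ∈ Ioo a b, ∀ x ∈ V, φ x = y → x i ≠ t) :
    ∃ x ∈ V, φ x = y ∧ ∀ t, A t x = x := by
  classical
  by_contra hcon
  have hf : Continuous fun x => φ x - y := hφ.sub continuous_const
  let K : Set (ι → ℝ) := {x | x ∈ V ∧ φ x = y}
  have hKc : ∀ x ∈ closure V, φ x = y → x ∈ K := fun x hx h => by
    refine ⟨?_, h⟩
    by_contra hx'
    exact H x (by rw [ho.frontier_eq]; exact ⟨hx, hx'⟩) h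
  have hK : IsCompact K := by
    have e : K = closure V ∩ {x | φ x = y} :=
      Set.ext fun x => ⟨fun h => ⟨subset_closure h.1, h.2⟩, fun h => hKc x h.1 h.2⟩
    rw [e]
    exact hb.isCompact_closure.inter_right (isClosed_eq hφ continuous_const)
  have hKinv : ∀ t, ∀ x ∈ K, A t x ∈ K := fun t x hx =>
    ⟨hV x hx.1 hx.2 t, (hinv t x).trans hx.2⟩
  obtain ⟨κ, _, σ, k, c, δ, hσ, hδ, hc1, hc2, hc3⟩ := exists_part hA hK hKinv
    (fun x hx h => hcon ⟨x, hx.1, hx.2, fixed_of_one hA h⟩)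
    (fun i a b hab => by
      obtain ⟨t, ht, h⟩ := hgrid i a b hab
      exact ⟨t, ht, fun x hx => h x hx.1 hx.2⟩)
  let U : κ → Set (ι → ℝ) := fun w => V ∩ thickening (δ / 2) {x | x ∈ K ∧ c x = w}
  have Uo : ∀ w, IsOpen (U w) := fun w => ho.inter isOpen_thickening
  have Ub : ∀ w, Bornology.IsBounded (U w) := fun w => hb.subset inter_subset_left
  have KU : ∀ w x, x ∈ K → c x = w → x ∈ U w := fun w x hx h =>
    ⟨hx.1, self_subset_thickening (half_pos hδ) _ ⟨hx, h⟩⟩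
  have hz : ∀ w, ∀ x ∈ closure (U w), φ x = y → x ∈ K ∧ c x = w := fun w x hx h => by
    have h1 : x ∈ K := hKc x (closure_mono inter_subset_left hx) h
    obtain ⟨z, hz, h2⟩ := Metric.mem_closure_iff.1 hx (δ / 2) (half_pos hδ)
    obtain ⟨x', hx', h3⟩ := mem_thickening_iff.1 hz.2
    refine ⟨h1, (hc3 x h1 x' hx'.1 ?_).trans hx'.2⟩
    linarith [dist_triangle x z x']
  have hfr : ∀ w, ∀ x ∈ frontier (U w), φ x - y ≠ 0 := fun w x hx h => by
    rw [(Uo w).frontier_eq] at hx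
    have h1 := hz w x hx.1 (sub_eq_zero.1 h)
    exact hx.2 (KU w x h1.1 h1.2)
  choose d hd using fun w => deg_int hf (Uo w) (Ub w) (hfr w)
  have hsum : deg (fun x => φ x - y) V = ∑ w ∈ Finset.univ, deg (fun x => φ x - y) (U w) := by
    refine deg_sum hf ho hb Finset.univ U (fun w _ => Uo w) (fun w _ => inter_subset_left)
      (fun w _ w' _ hne => ?_) fun x hx h => ?_
    · refine Set.disjoint_left.2 fun z h1 h2 => hne ?_
      obtain ⟨x, hx, h3⟩ := mem_thickening_iff.1 h1.2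
      obtain ⟨x', hx', h4⟩ := mem_thickening_iff.1 h2.2
      rw [← hx.2, ← hx'.2]
      refine hc3 x hx.1 x' hx'.1 ?_
      linarith [dist_triangle_left x x' z]
    · exact ⟨c x, Finset.mem_univ _, KU _ x (hKc x hx (sub_eq_zero.1 h)) rfl⟩
  have hσd : ∀ w, d (σ w) = d w := fun w => by
    let T := hA.homeo 1
    have hT : ∀ x, T x = A 1 x := fun _ => rfl
    have h1 := deg_comp T hpos hf (Uo (σ w)) (Ub (σ w)) (hfr (σ w))
    have e : (fun x => φ (T x) - y) = fun x => φ x - y := funext fun x => by rw [hT, hinv]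
    rw [e] at h1
    have Po : IsOpen (T ⁻¹' U (σ w)) := (Uo _).preimage T.continuous
    have Pb : Bornology.IsBounded (T ⁻¹' U (σ w)) := by
      refine ((Ub (σ w)).isCompact_closure.image T.symm.continuous).isBounded.subset ?_
      intro x hx
      exact ⟨T x, subset_closure hx, T.symm_apply_apply x⟩
    have h2 : deg (fun x => φ x - y) (T ⁻¹' U (σ w)) =
        deg (fun x => φ x - y) (U w ∩ T ⁻¹' U (σ w)) := by
      refine deg_excision hf Po Pb ((Uo w).inter Po) inter_subset_right fun x hx h => ?_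
      rw [← T.preimage_closure] at hx
      have h3 := hz (σ w) (T x) hx (by rw [hT, hinv]; exact sub_eq_zero.1 h)
      have h4 : x ∈ K := by
        have := hKinv (-1) _ h3.1
        rwa [hT, ← hA.2.2, neg_add_cancel, hA.2.1] at this
      have h5 : c x = w := σ.injective ((hc1 x h4).symm.trans h3.2)
      exact ⟨KU w x h4 h5, KU _ _ h3.1 h3.2⟩
    have h3 : deg (fun x => φ x - y) (U w) =
        deg (fun x => φ x - y) (U w ∩ T ⁻¹' U (σ w)) := by
      refine deg_excision hf (Uo w) (Ub w) ((Uo w).inter Po) inter_subset_left fun x hx h => ?_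
      have h4 := hz w x hx (sub_eq_zero.1 h)
      exact ⟨KU w x h4.1 h4.2, KU _ _ (hKinv 1 x h4.1) (by rw [hT, hc1 x h4.1, h4.2])⟩
    have h4 : (d (σ w) : ℝ) = d w := by rw [← hd, ← hd, ← h1, h2, h3]
    exact_mod_cast h4
  have h0 : ∀ w, σ w = w → d w = 0 := fun w hw => by
    by_contra hne
    obtain ⟨x, hx, h⟩ := exists_zero_of_deg_ne_zero hf (Uo w) (Ub w)
      (by rw [hd]; exact_mod_cast hne)
    have h1 := hz w x hx (sub_eq_zero.1 h)
    exact hc2 x h1.1 (by rw [h1.2, hw])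
  have hdvd := dvd_sum_of_perm σ k hσ d hσd h0
  have h1 : ∑ w, d w = 1 := by
    have : ((∑ w, d w : ℤ) : ℝ) = 1 := by
      rw [← hdeg, hsum]
      push_cast
      exact Finset.sum_congr rfl fun w _ => (hd w).symm
    exact_mod_cast this
  rw [h1] at hdvd
  have h2 : (p : ℤ) ∣ ((1 : ℕ) : ℤ) := by simpa using hdvd
  exact (Fact.out : p.Prime).one_lt.ne' (Nat.dvd_one.1 (Int.natCast_dvd_natCast.1 h2))

end Vale.Agent.P228
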