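import Vale.Agent.P228.Key
import Vale.Agent.P228.Gen
import Vale.Agent.P228.DegD

namespace Vale.Agent.P228

open MeasureTheory Set Metric Filter Topology Vale.Agent.Lib.Degree

variable {ι : Type} [Fintype ι] [DecidableEq ι]

theorem mem_interior_fix {p : ℕ} [Fact p.Prime] {A : ℤ_[p] → (ι → ℝ) → (ι → ℝ)} (hA : IsAct A)
    (hpos : Pos (A 1)) {φ ψ : (ι → ℝ) → (ι → ℝ)} (hφ : Continuous φ) (hψ : Continuous ψ)
    (hinv : ∀ t x, φ (A t x) = φ x) (hthin : Thin φ) (hfix : ∀ x, (∀ t, A t x = x) → φ x = ψ x)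
    {z : ι → ℝ} {ε : ℝ} (hε : 0 < ε) (hz : ∀ t, A t z = z) (hψz : ψ z = z)
    (h1 : ∀ x ∈ closedBall z ε, ∀ x' ∈ closedBall z ε, ‖ψ x - ψ x' - (x - x')‖ ≤ ‖x - x'‖ / 2)
    (h2 : ∀ x ∈ closedBall z ε, φ x = z → x = z)
    (h3 : ∀ η > (0 : ℝ), ∃ x0 ∈ ball z η, x0 ∈ interior {x | ∀ t, A t x = x} ∧
      ∀ x ∈ closedBall z ε, φ x = ψ x0 → x = x0) :
    z ∈ interior {x | ∀ t, A t x = x} := by
  have hF : IsClosed {x : ι → ℝ | ∀ t, A t x = x} := by
    have : {x : ι → ℝ | ∀ t, A t x = x} = ⋂ t, {x | A t x = x} := by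
      ext x
      simp
    rw [this]
    exact isClosed_iInter fun t => isClosed_eq (hA.homeo t).continuous continuous_id
  obtain ⟨u, W, -, hWo, hu, hzW, hW⟩ := generalized_tube_lemma (isCompact_univ (X := ℤ_[p]))
    (isCompact_singleton (x := z)) ((isOpen_ball (x := z) (ε := ε)).preimage hA.1) (by
      rintro ⟨t, x⟩ ⟨-, hx⟩
      have hx' : x = z := hx
      change A t x ∈ ball z ε
      rw [hx', hz]
      exact mem_ball_self hε)
  have hW' : ∀ x ∈ W, ∀ t, A t x ∈ ball z ε := fun x hx t =>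
    hW (mk_mem_prod (hu (mem_univ t)) hx)
  have hK : IsCompact (φ '' (closedBall z ε \ W)) :=
    ((isCompact_closedBall z ε).diff hWo).image hφ
  have hzK : z ∈ (φ '' (closedBall z ε \ W))ᶜ := by
    rintro ⟨x, hx, hx'⟩
    exact hx.2 (by rw [h2 x hx.1 hx']; exact hzW rfl)
  obtain ⟨η, hη, hηK⟩ := Metric.isOpen_iff.1 hK.isClosed.isOpen_compl z hzK
  have hin : ∀ x ∈ closedBall z ε, φ x ∈ ball z η → x ∈ W := by
    intro x hx hx'
    by_contra hc
    exact hηK hx' ⟨x, ⟨hx, hc⟩, rfl⟩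
  have hfr : ∀ x ∈ frontier (ball z ε), φ x ∉ ball z η := by
    intro x hx hx'
    rw [isOpen_ball.frontier_eq] at hx
    have h4 := hW' x (hin x (closure_ball_subset_closedBall hx.1) hx') 0
    rw [hA.2.1] at h4
    exact hx.2 h4
  have hη' : 0 < min ε (η / 2) := lt_min hε (by linarith)
  have hψO : ∀ x ∈ ball z (min ε (η / 2)), ψ x ∈ ball z η := by
    intro x hx
    have a1 : ‖x - z‖ < min ε (η / 2) := mem_ball_iff_norm.1 hx
    have a2 := h1 x (mem_closedBall_iff_norm.2 (a1.trans_le (min_le_left _ _)).le) z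
      (mem_closedBall_self hε.le)
    rw [hψz] at a2
    have a3 := norm_sub_norm_le (ψ x - z) (x - z)
    have a4 := a1.trans_le (min_le_right _ _)
    exact mem_ball_iff_norm.2 (by linarith)
  obtain ⟨x0, hx0, hx0F, hx0u⟩ := h3 _ hη'
  have hx0V : x0 ∈ ball z ε := ball_subset_ball (min_le_left _ _) hx0
  obtain ⟨s, hs, hsub⟩ := Metric.nhds_basis_closedBall.mem_iff.1
    ((isOpen_interior.inter isOpen_ball).mem_nhds ⟨hx0F, hx0V⟩)
  have hdeg : ∀ y ∈ ball z η, deg (fun x => φ x - y) (ball z ε) = 1 := by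
    intro y hy
    have c1 : Continuous fun x => φ x - y := hφ.sub continuous_const
    have c2 : Continuous fun x => φ x - ψ x0 := hφ.sub continuous_const
    rw [deg_homotopy c1 c2 isOpen_ball isBounded_ball ?_,
      deg_excision c2 isOpen_ball isBounded_ball (isOpen_ball (x := x0) (ε := s)) ?_ ?_]
    · refine deg_near c2 x0 hs fun x hx => ?_
      have b1 := hsub (mem_closedBall.2 hx.le)
      have b2 := h1 x (ball_subset_closedBall b1.2) x0 (ball_subset_closedBall hx0V)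
      rw [hfix x (interior_subset b1.1)]
      rw [dist_eq_norm] at hx
      rw [hx] at b2
      linarith
    · exact fun x hx => (hsub (ball_subset_closedBall hx)).2
    · intro x hx h0
      rw [hx0u x (closure_ball_subset_closedBall hx) (sub_eq_zero.1 h0)]
      exact mem_ball_self hs
    · intro x hx t ht h0
      have b1 : y + t • (ψ x0 - y) ∈ ball z η :=
        (convex_ball z η).add_smul_sub_mem hy (hψO x0 hx0) ht
      have b2 : φ x = y + t • (ψ x0 - y) := by
        have b3 : φ x - (y + t • (ψ x0 - y)) = φ x - y + t • (φ x - ψ x0 - (φ x - y)) := by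
          simp only [smul_sub]
          abel
        rw [h0] at b3
        exact sub_eq_zero.1 b3
      exact hfr x hx (b2 ▸ b1)
  have hC : IsCompact (ψ '' ({x : ι → ℝ | ∀ t, A t x = x} ∩ closedBall z ε)) :=
    ((isCompact_closedBall z ε).inter_left hF).image hψ
  have hO : ball z η ⊆ ψ '' ({x : ι → ℝ | ∀ t, A t x = x} ∩ closedBall z ε) := by
    by_contra hc
    obtain ⟨y, hy, hgen⟩ := exists_generic hthin (‖z‖ + ε) (isOpen_ball.sdiff hC.isClosed)
      (Set.not_subset.1 hc)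
    obtain ⟨x, hx, hxy, hxF⟩ := key hA hpos hφ hinv (isOpen_ball (x := z) (ε := ε)) isBounded_ball y
      (fun x hx h => hfr x hx (h ▸ hy.1)) (hdeg y hy.1)
      (fun x hx h => hW' x (hin x (ball_subset_closedBall hx) (h ▸ hy.1)))
      (fun i a b hab => by
        obtain ⟨t, ht, ht'⟩ := hgen i a b hab
        refine ⟨t, ht, fun x hx => ht' x ?_⟩
        have a1 := mem_ball_iff_norm.1 hx
        have a2 := norm_sub_norm_le x z
        linarith)
    exact hy.2 ⟨x, ⟨hxF, ball_subset_closedBall hx⟩, by rw [← hfix x hxF, hxy]⟩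
  refine mem_interior.2 ⟨ball z (min ε (η / 2)), fun x hx => ?_, isOpen_ball, mem_ball_self hη'⟩
  obtain ⟨x', hx', he⟩ := hO (hψO x hx)
  have a1 := h1 x (ball_subset_closedBall (ball_subset_ball (min_le_left _ _) hx)) x' hx'.2
  rw [he, sub_self, zero_sub, norm_neg] at a1
  have a2 : ‖x - x'‖ = 0 := le_antisymm (by linarith) (norm_nonneg _)
  rw [sub_eq_zero.1 (norm_eq_zero.1 a2)]
  exact hx'.1

end Vale.Agent.P228
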