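import Vale.Agent.P228.StepA
import Vale.Agent.P228.StepB
import Vale.Agent.P228.Geo

namespace Vale.Agent.P228

open MeasureTheory Set Metric Filter Topology Vale.Agent.Lib.Degree

variable {ι : Type} [Fintype ι] [DecidableEq ι]

theorem fix_univ {p : ℕ} [Fact p.Prime] {A : ℤ_[p] → (ι → ℝ) → (ι → ℝ)} (hA : IsAct A)
    (hreg : RegA A) {c : ι → ℝ} (hc : c ∈ interior {x | ∀ t, A t x = x}) :
    ∀ x t, A t x = x := by
  set F : Set (ι → ℝ) := {x | ∀ t, A t x = x} with hF
  have hFc : IsClosed F := by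
    have : F = ⋂ t, {x | A t x = x} := by ext x; simp [hF]
    rw [this]
    exact isClosed_iInter fun t => isClosed_eq (hA.homeo t).continuous continuous_id
  have hWF : closure (interior F) ⊆ F := closure_minimal interior_subset hFc
  by_cases hne : interior F = univ
  · intro x t
    have : x ∈ F := interior_subset (hne ▸ mem_univ x : x ∈ interior F)
    exact this t
  exfalso
  obtain ⟨z, ψ, l, ε, hzW, hε, hψ, hψz, h1, hlt, heq, hnear⟩ := exists_touch isOpen_interior hc hne
  obtain ⟨φ, hφ, hinv, hφreg, hfix, -, hl⟩ := exists_avg hA hreg hψ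
  have hD : ∀ x, l z ≤ l (ψ x) → ∀ t, l z ≤ l (ψ (A t x)) := by
    intro x hx t
    by_contra hlt'
    have h2 : A t x ∈ F := interior_subset (hlt _ (not_le.1 hlt'))
    have h3 : x = A t x := by
      have := h2 (-t)
      rw [← hA.2.2, neg_add_cancel, hA.2.1] at this
      exact this
    rw [← h3] at hlt'
    exact hlt' hx
  have hinj : ∀ x ∈ closedBall z ε, ∀ x' ∈ closedBall z ε, ψ x = ψ x' → x = x' := by
    intro x hx x' hx' h
    have := h1 x hx x' hx'
    rw [h, sub_self, zero_sub, norm_neg] at this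
    have h0 : ‖x - x'‖ = 0 := by linarith [norm_nonneg (x - x')]
    exact sub_eq_zero.1 (norm_eq_zero.1 h0)
  have hzF : z ∈ F := hWF (heq z (by rw [hψz]))
  obtain ⟨r, hr, hball⟩ := Metric.isOpen_iff.1 isOpen_interior c hc
  have hpos : Pos (A 1) := pos_of_fixed (hA.homeo 1) c hr fun x hx =>
    (interior_subset (hball hx) : x ∈ F) 1
  refine hzW (mem_interior_fix hA hpos hφ hψ.continuous hinv (thin_of_reg hφ hφreg) hfix hε hzF hψz
    h1 ?_ ?_)
  · intro x hx hxz
    have hxF : x ∈ F := by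
      rcases lt_or_ge (l (ψ x)) (l z) with h | h
      · exact interior_subset (hlt x h)
      · exact hWF (heq x ((hl l (l z) x (hD x h)).2 (by rw [hxz])))
    refine hinj x hx z (mem_closedBall_self hε.le) ?_
    rw [← hfix x hxF, hxz, hψz]
  · intro η hη
    obtain ⟨x0, hx0, hl0⟩ := hnear (min η ε) (lt_min hη hε)
    refine ⟨x0, ball_subset_ball (min_le_left _ _) hx0, hlt x0 hl0, fun x hx hxx => ?_⟩
    have hxF : x ∈ F := by
      rcases lt_or_ge (l (ψ x)) (l z) with h | h
      · exact interior_subset (hlt x h)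
      · have := (hl l (l z) x (hD x h)).1
        rw [hxx] at this
        exact absurd hl0 (not_lt.2 this)
    refine hinj x hx x0 (ball_subset_closedBall (ball_subset_ball (min_le_right _ _) hx0)) ?_
    rw [← hfix x hxF, hxx]

theorem main {p : ℕ} [Fact p.Prime] {A : ℤ_[p] → (ι → ℝ) → (ι → ℝ)} (hA : IsAct A)
    (hreg : RegA A) : ∃ k : ℕ, ∀ t x, A ((p : ℤ_[p]) ^ k * t) x = x := by
  obtain ⟨k, hk⟩ := exists_small hA (isCompact_closedBall (0 : ι → ℝ) 1)
    (show (0 : ℝ) < 1 / 8 by norm_num)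
  have hB : IsAct fun t : ℤ_[p] => A ((p : ℤ_[p]) ^ k * t) := by
    refine ⟨?_, fun x => by simp only [mul_zero, hA.2.1], fun s t x => by
      simp only [mul_add, hA.2.2]⟩
    exact hA.1.comp ((continuous_const.mul continuous_fst).prodMk continuous_snd)
  have hBr : RegA fun t : ℤ_[p] => A ((p : ℤ_[p]) ^ k * t) := fun R => by
    obtain ⟨C, β, h1, h2⟩ := hreg R
    exact ⟨C, β, h1, fun t => h2 _⟩
  have h := fixes_ball hB hBr fun t x hx => (hk t x hx).le
  have hc : (0 : ι → ℝ) ∈ interior {x | ∀ t, (fun t : ℤ_[p] => A ((p : ℤ_[p]) ^ k * t)) t x = x} :=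
    mem_interior.2 ⟨ball 0 (1 / 2), fun x hx => h x hx, isOpen_ball, mem_ball_self (by norm_num)⟩
  exact ⟨k, fun t x => fix_univ hB hBr hc x t⟩

end Vale.Agent.P228
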