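import Vale.Agent.P228.Base

namespace Vale.Agent.P228

open MeasureTheory Set Metric Filter Topology Vale.Agent.Lib.Degree

variable {ι : Type} [Fintype ι] [DecidableEq ι]

theorem nullA_term {φ : (ι → ℝ) → (ι → ℝ)} (hφ : Continuous φ) {Q : Set (ι → ℝ)} {r R C β : ℝ}
    (hQ : Q ⊆ closedBall 0 r) (h : Reg φ R C β) (hβ : 0 ≤ β) (w v : ι → ℝ) (hw : r + ‖w‖ ≤ R)
    {s : ℝ} (hv : ‖v‖ ≤ s) (hs : s ≤ 1) :
    ∫ u in Q, ‖φ (u + w + v) - φ (u + w)‖ ^ Fintype.card ι ≤ max C 0 * s ^ β := by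
  have c : Continuous fun x => ‖φ (x + v) - φ x‖ ^ Fintype.card ι := by fun_prop
  have e := (measurePreserving_add_right (volume : Measure (ι → ℝ)) w).setIntegral_preimage_emb
    (measurableEmbedding_addRight w) (fun x => ‖φ (x + v) - φ x‖ ^ Fintype.card ι)
    (closedBall 0 R)
  have k : IsCompact ((fun x => x + w) ⁻¹' closedBall (0 : ι → ℝ) R) :=
    (Homeomorph.addRight w).isCompact_preimage.2 (isCompact_closedBall _ _)
  refine (setIntegral_mono_set ((c.comp (continuous_add_const w)).continuousOn.integrableOn_compact k)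
    (Eventually.of_forall fun _ => pow_nonneg (norm_nonneg _) _) (HasSubset.Subset.eventuallyLE fun u hu => ?_)).trans
    (e.trans_le ((h v (hv.trans hs)).trans ?_))
  · have := mem_closedBall_zero_iff.1 (hQ hu)
    exact mem_closedBall_zero_iff.2 ((norm_add_le u w).trans (by linarith))
  · exact (mul_le_mul_of_nonneg_right (le_max_left _ _) (by positivity)).trans
      (mul_le_mul_of_nonneg_left (Real.rpow_le_rpow (norm_nonneg _) hv hβ) (le_max_right _ _))

theorem nullA_card (i : ι) (N k : ℕ) :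
    ((Zs i N k).card : ℝ) ≤ ((2 * N + 1) * 2 ^ k) ^ (Fintype.card ι - 1) := by
  have : (Zs i N k).card ≤ ((2 * N + 1) * 2 ^ k) ^ (Fintype.card ι - 1) := by
    rw [Zs, Fintype.card_piFinset, ← Finset.mul_prod_erase _ _ (Finset.mem_univ i), if_pos rfl,
      Finset.card_singleton, one_mul, ← Finset.card_univ,
      ← Finset.card_erase_of_mem (Finset.mem_univ i)]
    refine Finset.prod_le_pow_card _ _ _ fun j hj => ?_
    rw [if_neg (Finset.ne_of_mem_erase hj), Int.card_Icc, add_mul, mul_assoc]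
    have : 1 ≤ 2 ^ k := Nat.one_le_two_pow
    generalize N * 2 ^ k = M
    omega
  exact_mod_cast this

theorem nullA_int {φ : (ι → ℝ) → (ι → ℝ)} (hφ : Continuous φ) {Q : Set (ι → ℝ)} {r C β : ℝ}
    (hQ : Q ⊆ closedBall 0 r) (i : ι) (N k : ℕ) (h : Reg φ (r + N) C β) (hβ : 0 ≤ β) :
    ∫ u in Q, SS φ u i N k ≤ (2 * N + 1) ^ (Fintype.card ι - 1) * (Es ι).card * max C 0 *
      (2 ^ (Fintype.card ι - 1) * (1 / 2 : ℝ) ^ β) ^ k := by
  have I : ∀ (z e : ι → ℤ), IntegrableOn (fun u => ‖φ (pt u (k + 1) (fun j => 2 * z j + e j)) -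
      φ (pt u k z)‖ ^ Fintype.card ι) Q := fun z e => by
    refine (ContinuousOn.integrableOn_compact (isCompact_closedBall 0 r) ?_).mono_set hQ
    unfold pt
    fun_prop
  unfold SS
  rw [integral_finsetSum _ fun z _ => integrable_finsetSum _ fun e _ => I z e]
  have B : ∀ z ∈ Zs i N k, ∫ u in Q, ∑ e ∈ Es ι, ‖φ (pt u (k + 1) (fun j => 2 * z j + e j)) -
      φ (pt u k z)‖ ^ Fintype.card ι ≤ (Es ι).card * (max C 0 * ((1 / 2 : ℝ) ^ k) ^ β) := by
    intro z hz
    rw [integral_finsetSum _ fun e _ => I z e, ← nsmul_eq_mul]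
    refine Finset.sum_le_card_nsmul _ _ _ fun e he => ?_
    have := nullA_term hφ hQ h hβ (fun j => (z j : ℝ) / 2 ^ k) (fun j => (e j : ℝ) / 2 ^ (k + 1))
      (by
        refine add_le_add le_rfl ((pi_norm_le_iff_of_nonneg (by positivity)).2 fun j => ?_)
        have hj := Fintype.mem_piFinset.1 hz j
        rw [Real.norm_eq_abs, abs_div, abs_of_pos (by positivity : (0 : ℝ) < 2 ^ k),
          div_le_iff₀ (by positivity)]
        split_ifs at hj
        · rw [Finset.mem_singleton.1 hj]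
          simp only [Int.cast_zero, abs_zero]
          positivity
        · have := abs_le.2 (Finset.mem_Icc.1 hj)
          exact_mod_cast this)
      (s := (1 / 2 : ℝ) ^ k)
      ((pi_norm_le_iff_of_nonneg (by positivity)).2 fun j => by
        have hj := Fintype.mem_piFinset.1 he j
        rw [Real.norm_eq_abs, abs_div, abs_of_pos (by positivity : (0 : ℝ) < 2 ^ (k + 1)),
          div_le_iff₀ (by positivity), pow_succ, ← mul_assoc, ← mul_pow]
        simp only [Finset.mem_insert, Finset.mem_singleton] at hj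
        rcases hj with hj | hj <;> rw [hj] <;> norm_num)
      (pow_le_one₀ (by norm_num) (by norm_num))
    refine le_trans (le_of_eq ?_) this
    congr 1
    ext u
    congr 4
    · ext j
      simp only [pt, Pi.add_apply]
      push_cast
      field_simp
      ring
  refine (Finset.sum_le_card_nsmul _ _ _ B).trans ?_
  rw [nsmul_eq_mul]
  refine (mul_le_mul_of_nonneg_right (nullA_card i N k) (by positivity)).trans_eq ?_
  rw [← Real.rpow_pow_comm (by norm_num), mul_pow, mul_pow, ← pow_mul, ← pow_mul, mul_comm k]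
  ring

theorem exists_shift {φ : (ι → ℝ) → (ι → ℝ)} (hφ : Continuous φ) (i : ι) {a b : ℝ} (hab : a < b)
    (N : ℕ) {C β : ℝ} (hβ : (Fintype.card ι : ℝ) - 1 < β)
    (h : Reg φ (|a| + |b| + N + 1) C β) :
    ∃ (u : ι → ℝ) (θ : ℝ), u i ∈ Ioo a b ∧ ‖u‖ ≤ |a| + |b| + 1 ∧ 0 < θ ∧ θ < 1 ∧
      Summable fun k => SS φ u i N k / θ ^ (Fintype.card ι * k) := by
  have n1 : 1 ≤ Fintype.card ι := Fintype.card_pos_iff.2 ⟨i⟩
  have n2 : (1 : ℝ) ≤ Fintype.card ι := by exact_mod_cast n1
  obtain ⟨Q, hQ⟩ : ∃ Q : Set (ι → ℝ),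
    Q = Set.pi univ fun j => if j = i then Ioo a b else Ioo (-1) 1 := ⟨_, rfl⟩
  have Qo : IsOpen Q := by
    rw [hQ]
    exact isOpen_set_pi finite_univ fun j _ => by split_ifs <;> exact isOpen_Ioo
  have Qn : Q.Nonempty := by
    rw [hQ]
    exact univ_pi_nonempty_iff.2 fun j => by split_ifs <;> simp [hab]
  have Qb : Q ⊆ closedBall 0 (|a| + |b| + 1) := fun u hu => by
    rw [hQ] at hu
    refine mem_closedBall_zero_iff.2 ((pi_norm_le_iff_of_nonneg (by positivity)).2 fun j => ?_)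
    have hj := hu j (mem_univ j)
    have := abs_nonneg a
    have := abs_nonneg b
    have := neg_abs_le a
    have := le_abs_self b
    rw [Real.norm_eq_abs, abs_le]
    beta_reduce at hj
    split_ifs at hj <;> constructor <;> linarith [hj.1, hj.2]
  obtain ⟨ρ, hρ⟩ : ∃ ρ : ℝ, ρ = 2 ^ (Fintype.card ι - 1) * (1 / 2 : ℝ) ^ β := ⟨_, rfl⟩
  have ρ0 : 0 ≤ ρ := by rw [hρ]; positivity
  have ρ1 : ρ < 1 := by
    have := Real.rpow_lt_rpow_of_exponent_gt (by norm_num : (0 : ℝ) < 1 / 2) (by norm_num)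
      (show ((Fintype.card ι - 1 : ℕ) : ℝ) < β by rw [Nat.cast_sub n1]; simpa using hβ)
    rw [Real.rpow_natCast] at this
    rw [hρ]
    refine (mul_lt_mul_of_pos_left this (by positivity)).trans_eq ?_
    rw [← mul_pow]
    norm_num
  obtain ⟨θ, θ1, θ2, θ3⟩ : ∃ θ : ℝ, ρ < θ ^ Fintype.card ι ∧ 0 < θ ∧ θ < 1 := by
    have c : ContinuousAt (fun θ : ℝ => θ ^ Fintype.card ι) 1 := by fun_prop
    have c2 : ∀ᶠ θ in 𝓝[<] (1 : ℝ), ρ < θ ^ Fintype.card ι :=
      (c.tendsto.mono_left nhdsWithin_le_nhds).eventually (lt_mem_nhds (by simpa using ρ1))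
    exact (c2.and (Ioo_mem_nhdsLT zero_lt_one)).exists
  obtain ⟨D, hD⟩ : ∃ D : ℝ, D = (2 * N + 1) ^ (Fintype.card ι - 1) * (Es ι).card * max C 0 :=
    ⟨_, rfl⟩
  have D0 : 0 ≤ D := by rw [hD]; positivity
  have cs : ∀ k, Continuous fun u => SS φ u i N k / θ ^ (Fintype.card ι * k) := fun k => by
    unfold SS pt
    fun_prop
  have nn : ∀ k u, 0 ≤ SS φ u i N k / θ ^ (Fintype.card ι * k) := fun k u => by
    unfold SS
    positivity
  have B : ∀ k, ∫⁻ u in Q, ENNReal.ofReal (SS φ u i N k / θ ^ (Fintype.card ι * k)) ≤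
      ENNReal.ofReal (D * (ρ / θ ^ Fintype.card ι) ^ k) := fun k => by
    rw [← ofReal_integral_eq_lintegral_ofReal (((cs k).continuousOn.integrableOn_compact
      (isCompact_closedBall 0 _)).mono_set Qb) (Eventually.of_forall (nn k)), integral_div,
      div_pow, ← pow_mul, ← mul_div_assoc, hD, hρ]
    refine ENNReal.ofReal_le_ofReal (div_le_div_of_nonneg_right
      (nullA_int hφ Qb i N k ?_ (by linarith)) (by positivity))
    rwa [add_right_comm]
  have S : Summable fun k => D * (ρ / θ ^ Fintype.card ι) ^ k :=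
    (summable_geometric_of_lt_one (by positivity) ((div_lt_one (by positivity)).2 θ1)).mul_left D
  have F : ∫⁻ u in Q, ∑' k, ENNReal.ofReal (SS φ u i N k / θ ^ (Fintype.card ι * k)) ≠ ⊤ := by
    rw [lintegral_tsum fun k => (cs k).measurable.ennreal_ofReal.aemeasurable]
    refine ne_top_of_le_ne_top ?_ (ENNReal.tsum_le_tsum B)
    rw [← ENNReal.ofReal_tsum_of_nonneg (fun k => by positivity) S]
    exact ENNReal.ofReal_ne_top
  have hae := ae_lt_top' (AEMeasurable.ennreal_tsum fun k =>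
    (cs k).measurable.ennreal_ofReal.aemeasurable) F
  haveI : (ae (volume.restrict Q)).NeBot :=
    ae_neBot.2 (mt Measure.restrict_eq_zero.1 (Qo.measure_pos volume Qn).ne')
  obtain ⟨u, u1, u2⟩ := (hae.and (ae_restrict_mem Qo.measurableSet)).exists
  refine ⟨u, θ, ?_, mem_closedBall_zero_iff.1 (Qb u2), θ2, θ3, ?_⟩
  · rw [hQ] at u2
    simpa using u2 i (mem_univ i)
  · simpa only [ENNReal.toReal_ofReal (nn _ u)] using ENNReal.summable_toReal u1.ne

end Vale.Agent.P228
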