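import Vale.Agent.P228.Base

namespace Vale.Agent.P228

open MeasureTheory Set Metric Filter Topology Vale.Agent.Lib.Degree

variable {ι : Type} [Fintype ι] [DecidableEq ι]

theorem exists_small {p : ℕ} [Fact p.Prime] {A : ℤ_[p] → (ι → ℝ) → (ι → ℝ)} (hA : IsAct A)
    {K : Set (ι → ℝ)} (hK : IsCompact K) {δ : ℝ} (hδ : 0 < δ) :
    ∃ k : ℕ, ∀ t, ∀ x ∈ K, ‖A ((p : ℤ_[p]) ^ k * t) x - x‖ < δ := by
  have hc : Continuous fun q : ℤ_[p] × (ι → ℝ) => ‖A q.1 q.2 - q.2‖ :=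
    (hA.1.sub continuous_snd).norm
  have h1 : ∀ᶠ s in 𝓝 (0 : ℤ_[p]), ∀ x ∈ K, ‖A s x - x‖ < δ := by
    refine hK.eventually_forall_of_forall_eventually (P := fun s x => ‖A s x - x‖ < δ)
      fun y _ => ?_
    refine hc.continuousAt.eventually_lt continuousAt_const ?_
    simpa [hA.2.1] using hδ
  obtain ⟨η, hη, h2⟩ := Metric.eventually_nhds_iff.1 h1
  have hp1 : ‖(p : ℤ_[p])‖ < 1 := by
    rw [PadicInt.norm_p]
    exact inv_lt_one_of_one_lt₀ (by exact_mod_cast (Fact.out : p.Prime).one_lt)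
  obtain ⟨k, hk⟩ := exists_pow_lt_of_lt_one hη hp1
  refine ⟨k, fun t => h2 ?_⟩
  rw [dist_zero_right, norm_mul, norm_pow]
  exact lt_of_le_of_lt (mul_le_of_le_one_right (by positivity) (PadicInt.norm_le_one t)) hk

theorem fixed_of_one {p : ℕ} [Fact p.Prime] {A : ℤ_[p] → (ι → ℝ) → (ι → ℝ)} (hA : IsAct A)
    {x : ι → ℝ} (h : A 1 x = x) (t : ℤ_[p]) : A t x = x := by
  refine PadicInt.denseRange_natCast.induction_on (p := fun t => A t x = x) t
    (isClosed_eq (hA.1.comp (continuous_id.prodMk continuous_const)) continuous_const) fun n => ?_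
  induction n with
  | zero => simpa using hA.2.1 x
  | succ n ih => rw [Nat.cast_succ, hA.2.2, h, ih]

theorem exists_cells {K : Set (ι → ℝ)} (hK : IsCompact K)
    (hgrid : ∀ (i : ι) (a b : ℝ), a < b → ∃ t ∈ Ioo a b, ∀ x ∈ K, x i ≠ t) {η : ℝ} (hη : 0 < η) :
    ∃ (B : Type) (_ : Fintype B) (c : (ι → ℝ) → B) (δ : ℝ), 0 < δ ∧
      (∀ x ∈ K, ∀ y ∈ K, dist x y < δ → c x = c y) ∧
      ∀ x ∈ K, ∀ y ∈ K, c x = c y → dist x y < η := by
  classical
  obtain ⟨h, hh⟩ : ∃ h, h = η / 3 := ⟨_, rfl⟩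
  have h0 : 0 < h := by rw [hh]; positivity
  obtain ⟨R, hR⟩ := hK.isBounded.exists_norm_le
  choose t ht1 ht2 using fun (i : ι) (m : ℤ) =>
    hgrid i (m * h) ((m + 1) * h) (by linarith)
  have hd : ∀ q : ι × Finset.Icc (-⌈R / h⌉) ⌈R / h⌉, ∃ d : ℝ, 0 < d ∧
      ∀ x ∈ K, d ≤ |x q.1 - t q.1 q.2| := fun q =>
    hK.exists_forall_le' (f := fun x => |x q.1 - t q.1 q.2|) (by fun_prop)
      fun x hx => abs_pos.2 (sub_ne_zero.2 (ht2 _ _ x hx))
  choose d hd0 hd1 using hd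
  have he : ∀ᶠ δ in 𝓝[>] (0 : ℝ), ∀ q, δ ∈ Ioc 0 (d q) :=
    eventually_all.2 fun q => Ioc_mem_nhdsGT (hd0 q)
  obtain ⟨δ, hδ1, hδ0⟩ := (he.and self_mem_nhdsWithin).exists
  refine ⟨ι × Finset.Icc (-⌈R / h⌉) ⌈R / h⌉ → Bool, inferInstance,
    fun x q => decide (t q.1 q.2 < x q.1), δ, hδ0, fun x hx y hy hxy => ?_,
    fun x hx y hy hxy => ?_⟩
  · funext q
    have h1 : |x q.1 - y q.1| < δ := lt_of_le_of_lt (dist_le_pi_dist x y q.1) hxy
    have h2 := (hδ1 q).2.trans (hd1 q x hx)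
    have h3 := (hδ1 q).2.trans (hd1 q y hy)
    rw [abs_lt] at h1
    rw [le_abs] at h2 h3
    have h4 : 0 < δ := hδ0
    refine decide_eq_decide.2 ⟨fun h5 => ?_, fun h5 => ?_⟩
    · rcases h2 with h2 | h2 <;> linarith [h1.1, h1.2]
    · rcases h3 with h3 | h3 <;> linarith [h1.1, h1.2]
  · have key : ∀ x ∈ K, ∀ y : ι → ℝ,
        (∀ q : ι × Finset.Icc (-⌈R / h⌉) ⌈R / h⌉, t q.1 q.2 < y q.1 → t q.1 q.2 < x q.1) →
        ∀ i, y i - x i < η := by
      intro x hx y hq i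
      by_contra hc
      have hx1 : |x i| ≤ R := (norm_le_pi_norm x i).trans (hR x hx)
      rw [abs_le] at hx1
      have a1 : x i / h ≤ R / h := div_le_div_of_nonneg_right hx1.2 h0.le
      have a2 : -(R / h) ≤ x i / h := by
        rw [← neg_div]; exact div_le_div_of_nonneg_right hx1.1 h0.le
      have a3 := Int.le_ceil (x i / h)
      have a4 := Int.ceil_lt_add_one (x i / h)
      have a5 := Int.le_ceil (R / h)
      have hm : ⌈x i / h⌉ ∈ Finset.Icc (-⌈R / h⌉) ⌈R / h⌉ := by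
        refine Finset.mem_Icc.2 ⟨?_, Int.ceil_mono a1⟩
        have : ((-⌈R / h⌉ : ℤ) : ℝ) ≤ (⌈x i / h⌉ : ℤ) := by push_cast; linarith
        exact_mod_cast this
      have b1 := (ht1 i ⌈x i / h⌉).1
      have b2 := (ht1 i ⌈x i / h⌉).2
      rw [div_le_iff₀ h0] at a3
      have a6 : (⌈x i / h⌉ : ℝ) * h < x i + h := by
        have := mul_lt_mul_of_pos_right a4 h0
        rwa [add_mul, div_mul_cancel₀ _ h0.ne', one_mul] at this
      have b3 : t i ⌈x i / h⌉ < x i := hq (i, ⟨_, hm⟩) (by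
        change t i ⌈x i / h⌉ < y i
        linarith)
      linarith
    rw [dist_pi_lt_iff hη]
    intro i
    rw [Real.dist_eq, abs_sub_lt_iff]
    exact ⟨key y hy x (fun q => (decide_eq_decide.1 (congrFun hxy q)).1) i,
      key x hx y (fun q => (decide_eq_decide.1 (congrFun hxy q)).2) i⟩

end Vale.Agent.P228
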