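import Vale.Agent.P228.PartA

namespace Vale.Agent.P228

open MeasureTheory Set Metric Filter Topology Vale.Agent.Lib.Degree

variable {ι : Type} [Fintype ι] [DecidableEq ι]

/-- cyclic shift of words -/
def partBShift (N : ℕ) (B : Type) : Equiv.Perm (ZMod N → B) where
  toFun w := fun j => w (j + 1)
  invFun w := fun j => w (j - 1)
  left_inv w := by funext j; simp
  right_inv w := by funext j; simp

theorem partB_shift_pow (N : ℕ) (B : Type) (m : ℕ) (w : ZMod N → B) (j : ZMod N) :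
    (partBShift N B ^ m) w j = w (j + (m : ZMod N)) := by
  induction m generalizing w with
  | zero => simp
  | succ m ih =>
    rw [pow_succ, Equiv.Perm.mul_apply, ih]
    show w (j + (m : ZMod N) + 1) = _
    congr 1
    push_cast
    ring

theorem exists_part {p : ℕ} [Fact p.Prime] {A : ℤ_[p] → (ι → ℝ) → (ι → ℝ)} (hA : IsAct A)
    {K : Set (ι → ℝ)} (hK : IsCompact K) (hinv : ∀ t, ∀ x ∈ K, A t x ∈ K)
    (hfree : ∀ x ∈ K, A 1 x ≠ x)
    (hgrid : ∀ (i : ι) (a b : ℝ), a < b → ∃ t ∈ Ioo a b, ∀ x ∈ K, x i ≠ t) :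
    ∃ (κ : Type) (_ : Fintype κ) (σ : Equiv.Perm κ) (k : ℕ) (c : (ι → ℝ) → κ) (δ : ℝ),
      σ ^ (p ^ k) = 1 ∧ 0 < δ ∧ (∀ x ∈ K, c (A 1 x) = σ (c x)) ∧ (∀ x ∈ K, σ (c x) ≠ c x) ∧
      ∀ x ∈ K, ∀ y ∈ K, dist x y < δ → c x = c y := by
  classical
  have hcont : ∀ t, Continuous (A t) := fun t =>
    hA.1.comp (continuous_const.prodMk continuous_id)
  obtain ⟨η, hη, hηK⟩ := hK.exists_forall_le' (f := fun x => dist (A 1 x) x) (a := 0)
    ((hcont 1).dist continuous_id).continuousOn (fun x hx => dist_pos.2 (hfree x hx))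
  obtain ⟨B, hB, c0, δ0, hδ0, hc1, hc2⟩ := exists_cells hK hgrid hη
  obtain ⟨k, hk⟩ := exists_small hA hK hδ0
  haveI : NeZero (p ^ k) := ⟨pow_ne_zero k (Fact.out : p.Prime).ne_zero⟩
  have hF : Continuous fun (x : ι → ℝ) (j : ZMod (p ^ k)) => A ((j.val : ℕ) : ℤ_[p]) x :=
    continuous_pi fun j => hcont _
  obtain ⟨δ, hδ, hU⟩ := Metric.uniformContinuousOn_iff.1
    (hK.uniformContinuousOn_of_continuous hF.continuousOn) δ0 hδ0
  have hper : ∀ (a t : ℤ_[p]), ∀ x ∈ K, c0 (A ((p : ℤ_[p]) ^ k * t + a) x) = c0 (A a x) := by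
    intro a t x hx
    rw [hA.2.2]
    refine hc1 _ (hinv _ _ (hinv _ _ hx)) _ (hinv _ _ hx) ?_
    rw [dist_eq_norm]
    exact hk t _ (hinv _ _ hx)
  have heq : ∀ x ∈ K, (fun j : ZMod (p ^ k) => c0 (A ((j.val : ℕ) : ℤ_[p]) (A 1 x))) =
      partBShift (p ^ k) B (fun j : ZMod (p ^ k) => c0 (A ((j.val : ℕ) : ℤ_[p]) x)) := by
    intro x hx
    funext j
    show c0 (A ((j.val : ℕ) : ℤ_[p]) (A 1 x)) = c0 (A (((j + 1).val : ℕ) : ℤ_[p]) x)
    have h1 : (j + 1).val = (j.val + 1) % p ^ k := by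
      rw [← ZMod.val_natCast]
      congr 1
      push_cast
      rw [ZMod.natCast_zmod_val]
    have h2 : ((j.val : ℕ) : ℤ_[p]) + 1 = (p : ℤ_[p]) ^ k * (((j.val + 1) / p ^ k : ℕ) : ℤ_[p]) +
        (((j.val + 1) % p ^ k : ℕ) : ℤ_[p]) := by
      have := Nat.div_add_mod (j.val + 1) (p ^ k)
      exact_mod_cast congrArg (Nat.cast : ℕ → ℤ_[p]) this.symm
    rw [← hA.2.2, h1, h2]
    exact hper _ _ x hx
  refine ⟨ZMod (p ^ k) → B, inferInstance, partBShift (p ^ k) B, k,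
    fun x j => c0 (A ((j.val : ℕ) : ℤ_[p]) x), δ, ?_, hδ, heq, ?_, ?_⟩
  · ext w j
    rw [partB_shift_pow, ZMod.natCast_self, add_zero]
    rfl
  · intro x hx h
    have h1 := congrFun ((heq x hx).trans h) 0
    simp only [ZMod.val_zero, Nat.cast_zero, hA.2.1] at h1
    have h2 := hc2 _ (hinv 1 x hx) _ hx h1
    exact absurd (hηK x hx) (not_le.2 h2)
  · intro x hx y hy hxy
    funext j
    refine hc1 _ (hinv _ _ hx) _ (hinv _ _ hy) ?_
    exact lt_of_le_of_lt (dist_le_pi_dist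
      (fun j : ZMod (p ^ k) => A ((j.val : ℕ) : ℤ_[p]) x)
      (fun j : ZMod (p ^ k) => A ((j.val : ℕ) : ℤ_[p]) y) j) (hU x hx y hy hxy)

theorem partB_dvd {α : Type} (p s : ℕ) [Fact p.Prime] (γ : α → α) (Z : Finset α)
    (hZ : ∀ z ∈ Z, γ z ∈ Z) (hper : ∀ z ∈ Z, γ^[p ^ s] z = z) (hfree : ∀ z ∈ Z, γ z ≠ z) :
    p ∣ Z.card := by
  classical
  let f : Function.End {z // z ∈ Z} := fun z => ⟨γ z.1, hZ z.1 z.2⟩
  have hit : ∀ (k : ℕ) (z : {z // z ∈ Z}),
      ((f ^ k : Function.End {z // z ∈ Z}) z).1 = γ^[k] z.1 := by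
    intro k
    induction k with
    | zero => intro z; rfl
    | succ k ih =>
      intro z
      rw [pow_succ, Function.iterate_succ_apply]
      exact ih (f z)
  have hf : f ^ p ^ s = 1 := by
    funext z
    exact Subtype.ext ((hit _ z).trans (hper z.1 z.2))
  have h := Equiv.Perm.card_fixedPoints_modEq hf
  have h0 : Fintype.card f.fixedPoints = 0 := by
    rw [Fintype.card_eq_zero_iff]
    exact ⟨fun z => hfree z.1.1 z.1.2 (congrArg Subtype.val z.2)⟩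
  rw [h0, Fintype.card_coe] at h
  exact (Nat.modEq_zero_iff_dvd).1 h

theorem dvd_sum_of_perm {p : ℕ} [Fact p.Prime] {κ : Type} [Fintype κ] (σ : Equiv.Perm κ) (k : ℕ)
    (hσ : σ ^ (p ^ k) = 1) (d : κ → ℤ) (hd : ∀ w, d (σ w) = d w) (h0 : ∀ w, σ w = w → d w = 0) :
    (p : ℤ) ∣ ∑ w, d w := by
  classical
  rw [← Finset.sum_fiberwise_of_maps_to (s := Finset.univ) (t := Finset.univ.image d) (g := d)
    (fun w hw => Finset.mem_image_of_mem d hw) d]
  refine Finset.dvd_sum fun v _ => ?_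
  rw [Finset.sum_congr rfl (fun w hw => (Finset.mem_filter.1 hw).2), Finset.sum_const,
    nsmul_eq_mul]
  by_cases hv : v = 0
  · simp [hv]
  · refine Dvd.dvd.mul_right (Int.natCast_dvd_natCast.2 ?_) v
    refine partB_dvd p k σ _ (fun w hw => ?_) (fun w _ => ?_) (fun w hw h => ?_)
    · rw [Finset.mem_filter] at hw ⊢
      exact ⟨Finset.mem_univ _, (hd w).trans hw.2⟩
    · rw [Equiv.Perm.iterate_eq_pow, hσ]
      rfl
    · exact hv ((Finset.mem_filter.1 hw).2.symm.trans (h0 w h))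

end Vale.Agent.P228
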