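import Vale.Agent.P228.Key
import Vale.Agent.P228.Gen
import Vale.Agent.P228.Avg
import Vale.Agent.P228.DegD

namespace Vale.Agent.P228

open MeasureTheory Set Metric Filter Topology Vale.Agent.Lib.Degree

variable {ι : Type} [Fintype ι] [DecidableEq ι]

theorem fixes_ball {p : ℕ} [Fact p.Prime] {A : ℤ_[p] → (ι → ℝ) → (ι → ℝ)} (hA : IsAct A)
    (hreg : RegA A) (hclose : ∀ t, ∀ x ∈ closedBall (0 : ι → ℝ) 1, ‖A t x - x‖ ≤ 1 / 8) :
    ∀ x ∈ ball (0 : ι → ℝ) (1 / 2), ∀ t, A t x = x := by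
  obtain ⟨φ, hφ, hinv, hR, hfix, hnear, -⟩ := exists_avg hA hreg (ψ := id) contDiff_id
  have hn : ∀ x : ι → ℝ, ‖x‖ ≤ 1 → ‖φ x - x‖ ≤ 1 / 8 := fun x hx =>
    hnear x _ fun t => hclose t x (mem_closedBall_zero_iff.2 hx)
  have hFc : IsClosed {x : ι → ℝ | ∀ t, A t x = x} := by
    rw [ofPred_forall]
    exact isClosed_iInter fun t => isClosed_eq (hA.homeo t).continuous continuous_id
  intro x0 hx0
  by_contra hcon
  obtain ⟨y, hy, hgrid⟩ := exists_generic (thin_of_reg hφ hR) 1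
    (O := ball (0 : ι → ℝ) (1 / 2) \ {x | ∀ t, A t x = x}) (isOpen_ball.sdiff hFc) ⟨x0, hx0, hcon⟩
  have hy1 : ‖y‖ < 1 / 2 := mem_ball_zero_iff.1 hy.1
  have hsph : ∀ x : ι → ℝ, dist x 0 = 1 → ‖φ x - y - (x - 0)‖ < 1 := by
    intro x hx
    rw [dist_zero_right] at hx
    have e : φ x - y - (x - 0) = (φ x - x) - y := by abel
    rw [e]
    have := norm_sub_le (φ x - x) y
    have := hn x hx.le
    linarith
  obtain ⟨x, hxV, hxy, hxf⟩ := key hA (pos_of_close (hA.homeo 1) (hclose 1)) hφ hinv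
    (V := ball (0 : ι → ℝ) 1) isOpen_ball isBounded_ball y
    (fun x hx h => by
      rw [frontier_ball _ one_ne_zero] at hx
      have h1 := hsph x hx
      have h2 : ‖x‖ = 1 := by simpa using hx
      rw [h] at h1
      simp [h2] at h1)
    (deg_near (hφ.sub continuous_const) 0 one_pos hsph)
    (fun x hx h t => by
      have hx1 : ‖x‖ ≤ 1 := (mem_ball_zero_iff.1 hx).le
      have h1 := hn x hx1
      have h2 := hclose t x (mem_closedBall_zero_iff.2 hx1)
      rw [h] at h1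
      have h3 : A t x = (A t x - x) + (y - (y - x)) := by abel
      have h4 := norm_add_le (A t x - x) (y - (y - x))
      have h5 := norm_sub_le y (y - x)
      rw [← h3] at h4
      rw [mem_ball_zero_iff]
      linarith)
    (fun i a b hab => by
      obtain ⟨t, ht, h⟩ := hgrid i a b hab
      exact ⟨t, ht, fun x hx => h x (mem_ball_zero_iff.1 hx).le⟩)
  have : x = y := by rw [← hxy, hfix x hxf]; rfl
  exact hy.2 (this ▸ hxf)

end Vale.Agent.P228
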